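import Vale.Agent.Lib.P184c.Cyc

/-!
# P184c: commutative groups are amenable

Classical proof: Hahn-Banach with the sublinear functional `N f = inf` over finite families
`h : ι → H` of `sup_x` of the average of `f (h i * x)`.
-/

namespace Vale.Agent.Lib.P184c

open Vale.Agent.Lib.P184

universe u

variable {H : Type u} [Group H]

/-- The space of bounded real functions. -/
def bddSub (H : Type u) : Submodule ℝ (H → ℝ) where
  carrier := {f | BddFun f}
  add_mem' := by
    rintro f f' ⟨C, hC⟩ ⟨C', hC'⟩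
    exact ⟨C + C', fun x => (abs_add_le _ _).trans (add_le_add (hC x) (hC' x))⟩
  zero_mem' := ⟨0, fun x => by simp⟩
  smul_mem' := by
    rintro c f ⟨C, hC⟩
    refine ⟨|c| * C, fun x => ?_⟩
    simp only [Pi.smul_apply, smul_eq_mul, abs_mul]
    exact mul_le_mul_of_nonneg_left (hC x) (abs_nonneg c)

/-- Upper bounds of finite averages of translates of `f`. -/
def avSet (f : H → ℝ) : Set ℝ :=
  {r | ∃ (ι : Type) (_ : Fintype ι) (_ : Nonempty ι) (h : ι → H),
    ∀ x, ∑ i, f (h i * x) ≤ r * Fintype.card ι}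

/-- The sublinear functional. -/
noncomputable def avN (f : H → ℝ) : ℝ := sInf (avSet f)

lemma avSet_lower {f : H → ℝ} {C : ℝ} (hC : ∀ x, -C ≤ f x) {r : ℝ} (hr : r ∈ avSet f) :
    -C ≤ r := by
  obtain ⟨ι, _, _, h, hh⟩ := hr
  have h1 := hh 1
  have h2 : ∑ _i : ι, (-C) ≤ ∑ i, f (h i * 1) := Finset.sum_le_sum fun i _ => hC _
  rw [Finset.sum_const, Finset.card_univ, nsmul_eq_mul] at h2
  have hpos : (0 : ℝ) < Fintype.card ι := by exact_mod_cast Fintype.card_pos
  have h3 : (Fintype.card ι : ℝ) * (-C) ≤ (Fintype.card ι : ℝ) * r := by linarith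
  exact le_of_mul_le_mul_left h3 hpos

lemma avSet_upper {f : H → ℝ} {c : ℝ} (hc : ∀ x, f x ≤ c) : c ∈ avSet f :=
  ⟨Unit, inferInstance, inferInstance, fun _ => 1, fun x => by simpa using hc x⟩

lemma avSet_bddBelow {f : H → ℝ} (hf : BddFun f) : BddBelow (avSet f) := by
  obtain ⟨C, hC⟩ := hf
  exact ⟨-C, fun r hr => avSet_lower (fun x => (abs_le.mp (hC x)).1) hr⟩

lemma avSet_nonempty {f : H → ℝ} (hf : BddFun f) : (avSet f).Nonempty := by
  obtain ⟨C, hC⟩ := hf
  exact ⟨C, avSet_upper fun x => (abs_le.mp (hC x)).2⟩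

lemma avN_le {f : H → ℝ} (hf : BddFun f) {c : ℝ} (hc : ∀ x, f x ≤ c) : avN f ≤ c :=
  csInf_le (avSet_bddBelow hf) (avSet_upper hc)

lemma avSet_add (hcomm : ∀ a b : H, a * b = b * a) {f f' : H → ℝ} {r r' : ℝ}
    (hr : r ∈ avSet f) (hr' : r' ∈ avSet f') : r + r' ∈ avSet (fun x => f x + f' x) := by
  obtain ⟨ι, _, _, h, hh⟩ := hr
  obtain ⟨κ, _, _, k, hk⟩ := hr'
  refine ⟨ι × κ, inferInstance, inferInstance, fun p => h p.1 * k p.2, fun x => ?_⟩
  rw [Finset.sum_add_distrib, Fintype.card_prod]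
  have h1 : ∑ p : ι × κ, f (h p.1 * k p.2 * x) ≤ r * Fintype.card ι * Fintype.card κ := by
    rw [Fintype.sum_prod_type_right]
    calc ∑ j : κ, ∑ i : ι, f (h i * k j * x) = ∑ j : κ, ∑ i : ι, f (h i * (k j * x)) := by
          simp only [mul_assoc]
      _ ≤ ∑ _j : κ, r * Fintype.card ι := Finset.sum_le_sum fun j _ => hh _
      _ = r * Fintype.card ι * Fintype.card κ := by
          rw [Finset.sum_const, Finset.card_univ, nsmul_eq_mul]; ring
  have h2 : ∑ p : ι × κ, f' (h p.1 * k p.2 * x) ≤ r' * Fintype.card κ * Fintype.card ι := by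
    rw [Fintype.sum_prod_type]
    calc ∑ i : ι, ∑ j : κ, f' (h i * k j * x) = ∑ i : ι, ∑ j : κ, f' (k j * (h i * x)) := by
          refine Finset.sum_congr rfl fun i _ => Finset.sum_congr rfl fun j _ => ?_
          rw [hcomm (h i) (k j), mul_assoc]
      _ ≤ ∑ _i : ι, r' * Fintype.card κ := Finset.sum_le_sum fun i _ => hk _
      _ = r' * Fintype.card κ * Fintype.card ι := by
          rw [Finset.sum_const, Finset.card_univ, nsmul_eq_mul]; ring
  push_cast
  nlinarith [h1, h2]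

lemma avN_add (hcomm : ∀ a b : H, a * b = b * a) {f f' : H → ℝ} (hf : BddFun f)
    (hf' : BddFun f') : avN (fun x => f x + f' x) ≤ avN f + avN f' := by
  have hb : BddFun (fun x => f x + f' x) := (bddSub H).add_mem hf hf'
  have h1 : ∀ r ∈ avSet f, ∀ r' ∈ avSet f', avN (fun x => f x + f' x) ≤ r + r' :=
    fun r hr r' hr' => csInf_le (avSet_bddBelow hb) (avSet_add hcomm hr hr')
  have h2 : ∀ r' ∈ avSet f', avN (fun x => f x + f' x) - r' ≤ avN f := fun r' hr' =>
    le_csInf (avSet_nonempty hf) fun r hr => by linarith [h1 r hr r' hr']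
  have h3 : avN (fun x => f x + f' x) - avN f ≤ avN f' :=
    le_csInf (avSet_nonempty hf') fun r' hr' => by linarith [h2 r' hr']
  linarith

lemma avN_smul_le {f : H → ℝ} (hf : BddFun f) {c : ℝ} (hc : 0 < c) :
    avN (fun x => c * f x) ≤ c * avN f := by
  have hb : BddFun (fun x => c * f x) := (bddSub H).smul_mem c hf
  have h1 : ∀ r ∈ avSet f, avN (fun x => c * f x) / c ≤ r := by
    rintro r ⟨ι, _, _, h, hh⟩
    rw [div_le_iff₀ hc]
    refine csInf_le (avSet_bddBelow hb) ⟨ι, inferInstance, inferInstance, h, fun x => ?_⟩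
    rw [← Finset.mul_sum]
    have := mul_le_mul_of_nonneg_left (hh x) hc.le
    linarith
  have h2 : avN (fun x => c * f x) / c ≤ avN f := le_csInf (avSet_nonempty hf) h1
  rw [div_le_iff₀ hc] at h2
  linarith

lemma avN_smul {f : H → ℝ} (hf : BddFun f) {c : ℝ} (hc : 0 < c) :
    avN (fun x => c * f x) = c * avN f := by
  refine le_antisymm (avN_smul_le hf hc) ?_
  have hb : BddFun (fun x => c * f x) := (bddSub H).smul_mem c hf
  have h1 := avN_smul_le hb (inv_pos.mpr hc)
  have h2 : (fun x => c⁻¹ * (c * f x)) = f := by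
    funext x
    rw [← mul_assoc, inv_mul_cancel₀ hc.ne', one_mul]
  rw [h2] at h1
  have h3 := mul_le_mul_of_nonneg_left h1 hc.le
  rw [← mul_assoc, mul_inv_cancel₀ hc.ne', one_mul] at h3
  exact h3

lemma avN_shift {f : H → ℝ} (hf : BddFun f) (h : H) :
    avN (fun x => f (h * x) - f x) ≤ 0 ∧ avN (fun x => f x - f (h * x)) ≤ 0 := by
  obtain ⟨C, hC⟩ := hf
  have hC0 : 0 ≤ C := (abs_nonneg _).trans (hC 1)
  have hb1 : BddFun (fun x => f (h * x) - f x) :=
    ⟨C + C, fun x => (abs_sub _ _).trans (add_le_add (hC _) (hC _))⟩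
  have hb2 : BddFun (fun x => f x - f (h * x)) :=
    ⟨C + C, fun x => (abs_sub _ _).trans (add_le_add (hC _) (hC _))⟩
  have tel : ∀ (n : ℕ) (x : H), ∑ i : Fin (n + 1), (f (h * (h ^ (i : ℕ) * x)) - f (h ^ (i : ℕ) * x))
      = f (h ^ (n + 1) * x) - f x := by
    intro n x
    rw [Fin.sum_univ_eq_sum_range (fun i => f (h * (h ^ i * x)) - f (h ^ i * x)) (n + 1)]
    have := Finset.sum_range_sub (fun i => f (h ^ i * x)) (n + 1)
    simp only [pow_zero, one_mul] at this
    rw [← this]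
    refine Finset.sum_congr rfl fun i _ => ?_
    rw [pow_succ', mul_assoc]
  have key1 : ∀ n : ℕ, avN (fun x => f (h * x) - f x) ≤ 2 * C / (n + 1) := by
    intro n
    refine csInf_le (avSet_bddBelow hb1)
      ⟨Fin (n + 1), inferInstance, inferInstance, fun i => h ^ (i : ℕ), fun x => ?_⟩
    rw [tel n x, Fintype.card_fin]
    have hn : ((n + 1 : ℕ) : ℝ) ≠ 0 := by positivity
    push_cast
    rw [div_mul_cancel₀ _ (by positivity)]
    have a1 := (abs_le.mp (hC (h ^ (n + 1) * x))).2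
    have a2 := (abs_le.mp (hC x)).1
    linarith
  have key2 : ∀ n : ℕ, avN (fun x => f x - f (h * x)) ≤ 2 * C / (n + 1) := by
    intro n
    refine csInf_le (avSet_bddBelow hb2)
      ⟨Fin (n + 1), inferInstance, inferInstance, fun i => h ^ (i : ℕ), fun x => ?_⟩
    have : ∑ i : Fin (n + 1), (f (h ^ (i : ℕ) * x) - f (h * (h ^ (i : ℕ) * x)))
        = -(f (h ^ (n + 1) * x) - f x) := by
      rw [← tel n x, ← Finset.sum_neg_distrib]
      refine Finset.sum_congr rfl fun i _ => by ring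
    rw [this, Fintype.card_fin]
    push_cast
    rw [div_mul_cancel₀ _ (by positivity)]
    have a1 := (abs_le.mp (hC (h ^ (n + 1) * x))).1
    have a2 := (abs_le.mp (hC x)).2
    linarith
  have lim : ∀ a : ℝ, (∀ n : ℕ, a ≤ 2 * C / (n + 1)) → a ≤ 0 := by
    intro a ha
    by_contra hpos
    push Not at hpos
    obtain ⟨n, hn⟩ := exists_nat_gt (2 * C / a)
    have h1 := ha n
    rw [div_lt_iff₀ hpos] at hn
    rw [le_div_iff₀ (by positivity)] at h1
    nlinarith
  exact ⟨lim _ key1, lim _ key2⟩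

/-- Every commutative group is amenable. -/
theorem amenable_of_comm (hcomm : ∀ a b : H, a * b = b * a) : AmenableGrp H := by
  classical
  obtain ⟨g, -, hg⟩ := exists_extension_of_le_sublinear (E := bddSub H) ⊥
    (fun f => avN (f : H → ℝ))
    (fun c hc f => avN_smul f.2 hc)
    (fun f f' => avN_add hcomm f.2 f'.2)
    (fun x => by
      have hx : (x : bddSub H) = 0 := by
        have h1 : (x : bddSub H) ∈ (⊥ : Submodule ℝ (bddSub H)) := x.2
        exact (Submodule.mem_bot ℝ).mp h1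
      have h0 : (0 : ℝ) ≤ avN ((x : bddSub H) : H → ℝ) := by
        rw [hx]
        refine le_csInf (avSet_nonempty (bddSub H).zero_mem) fun r hr => ?_
        have := avSet_lower (f := ((0 : bddSub H) : H → ℝ)) (C := 0) (fun x => by simp) hr
        simpa using this
      exact h0)
  have hbc : ∀ c : ℝ, BddFun (fun _ : H => c) := fun c => ⟨|c|, fun _ => le_rfl⟩
  refine ⟨fun f => if hf : BddFun f then g ⟨f, hf⟩ else 0, ?_, ?_, ?_, ?_⟩
  · intro f f' hf hf'
    have hb : BddFun (fun x => f x + f' x) := (bddSub H).add_mem hf hf'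
    simp only [dif_pos hf, dif_pos hf', dif_pos hb]
    rw [← map_add]
    rfl
  · intro f f' hf hf' hle
    simp only [dif_pos hf, dif_pos hf']
    have h1 : g (⟨f, hf⟩ - ⟨f', hf'⟩) ≤ 0 :=
      (hg _).trans (avN_le ((bddSub H).sub_mem hf hf') fun x => by
        simpa using hle x)
    rw [map_sub] at h1
    linarith
  · intro c
    simp only [dif_pos (hbc c)]
    have h1 : g ⟨fun _ => c, hbc c⟩ ≤ c := (hg _).trans (avN_le (hbc c) fun _ => le_rfl)
    have h2 : g (-⟨fun _ => c, hbc c⟩) ≤ -c :=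
      (hg _).trans (avN_le ((bddSub H).neg_mem (hbc c)) fun _ => by simp)
    rw [map_neg] at h2
    linarith
  · intro f h hf
    have hs : BddFun (fun x => f (h * x)) := by
      obtain ⟨C, hC⟩ := hf
      exact ⟨C, fun x => hC _⟩
    simp only [dif_pos hf, dif_pos hs]
    obtain ⟨a1, a2⟩ := avN_shift hf h
    have h1 : g (⟨fun x => f (h * x), hs⟩ - ⟨f, hf⟩) ≤ 0 := (hg _).trans a1
    have h2 : g (⟨f, hf⟩ - ⟨fun x => f (h * x), hs⟩) ≤ 0 := (hg _).trans a2
    rw [map_sub] at h1 h2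
    linarith

end Vale.Agent.Lib.P184c
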