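import Mathlib

/-!
P184c, unit U1: two idempotents of a ring that are close for a submultiplicative size have the same
trace.  Pure algebra: with `d = f - e`, `B = 1 - e - f` one has `d*d + B*B = 1`, `d*B = -(B*d)`,
hence `T (d^(2k+1)) = T d` for all `k`, and `‖T (d^(2k+1))‖ ≤ K r^(2k+1) → 0`.
-/

namespace Vale.Agent.Lib.P184c

/-- U1a -/
theorem trace_pow_odd {R : Type*} [Ring R] (T : R →+ ℂ) (hT : ∀ a b, T (a * b) = T (b * a))
    (e f : R) (he : e * e = e) (hf : f * f = f) (k : ℕ) :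
    T ((f - e) ^ (2 * k + 1)) = T (f - e) := by
  set d : R := f - e with hd
  set B : R := 1 - e - f with hB
  have hsq : d * d = 1 - B * B := by
    rw [hd, hB]
    noncomm_ring
    rw [he, hf]
    abel
  have hanti : d * B = -(B * d) := by
    rw [hd, hB]
    noncomm_ring
    rw [he, hf]
    abel
  have hanti_k : ∀ m : ℕ, d ^ (2 * m + 1) * B = -(B * d ^ (2 * m + 1)) := by
    intro m
    induction m with
    | zero => simpa using hanti
    | succ m ih =>
      have e1 : d ^ (2 * (m + 1) + 1) = d ^ (2 * m + 1) * d * d := by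
        rw [show 2 * (m + 1) + 1 = (2 * m + 1) + 1 + 1 by ring, pow_succ, pow_succ]
      rw [e1]
      calc d ^ (2 * m + 1) * d * d * B = d ^ (2 * m + 1) * d * (d * B) := by noncomm_ring
        _ = d ^ (2 * m + 1) * d * (-(B * d)) := by rw [hanti]
        _ = -(d ^ (2 * m + 1) * (d * B) * d) := by noncomm_ring
        _ = -(d ^ (2 * m + 1) * (-(B * d)) * d) := by rw [hanti]
        _ = (d ^ (2 * m + 1) * B) * d * d := by noncomm_ring
        _ = (-(B * d ^ (2 * m + 1))) * d * d := by rw [ih]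
        _ = -(B * (d ^ (2 * m + 1) * d * d)) := by noncomm_ring
  induction k with
  | zero => simp
  | succ k ih =>
    have e1 : d ^ (2 * (k + 1) + 1) = d ^ (2 * k + 1) * (d * d) := by
      rw [show 2 * (k + 1) + 1 = (2 * k + 1) + 1 + 1 by ring, pow_succ, pow_succ, mul_assoc]
    have hz : T (d ^ (2 * k + 1) * (B * B)) = 0 := by
      have h1 : d ^ (2 * k + 1) * (B * B) = -(B * (d ^ (2 * k + 1) * B)) := by
        calc d ^ (2 * k + 1) * (B * B) = (d ^ (2 * k + 1) * B) * B := by noncomm_ring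
          _ = (-(B * d ^ (2 * k + 1))) * B := by rw [hanti_k k]
          _ = -(B * (d ^ (2 * k + 1) * B)) := by noncomm_ring
      have h2 : T (d ^ (2 * k + 1) * (B * B)) = T (B * (d ^ (2 * k + 1) * B)) := by
        rw [← mul_assoc, hT]
      have h3 : T (d ^ (2 * k + 1) * (B * B)) = -T (B * (d ^ (2 * k + 1) * B)) := by
        rw [h1, map_neg]
      have h5 : (2 : ℂ) * T (d ^ (2 * k + 1) * (B * B)) = 0 := by linear_combination h2 + h3
      simpa using h5
    rw [e1, hsq, mul_sub, mul_one, map_sub, hz, sub_zero, ih]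

/-- U1b -/
theorem trace_eq_of_close {R : Type*} [Ring R] (T : R →+ ℂ) (hT : ∀ a b, T (a * b) = T (b * a))
    (NB : R → ℝ → Prop) (hmul : ∀ a b r s, NB a r → NB b s → NB (a * b) (r * s))
    (hbd : ∀ a r, NB a r → ‖T a‖ ≤ r)
    (e f : R) (he : e * e = e) (hf : f * f = f) (r : ℝ) (hr0 : 0 ≤ r) (hr : r < 1)
    (hd : NB (f - e) r) : T f = T e := by
  have hpow : ∀ n : ℕ, NB ((f - e) ^ (n + 1)) (r ^ (n + 1)) := by
    intro n
    induction n with
    | zero => simpa using hd
    | succ n ih =>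
      rw [pow_succ (f - e) (n + 1), pow_succ r (n + 1)]
      exact hmul _ _ _ _ ih hd
  have hle : ∀ k : ℕ, ‖T (f - e)‖ ≤ r ^ (2 * k + 1) := by
    intro k
    rw [← trace_pow_odd T hT e f he hf k]
    exact hbd _ _ (hpow (2 * k))
  have hzero : T (f - e) = 0 := by
    by_contra hne
    have hc : 0 < ‖T (f - e)‖ := norm_pos_iff.mpr hne
    obtain ⟨n, hn⟩ := exists_pow_lt_of_lt_one hc hr
    have h1 : r ^ (2 * n + 1) ≤ r ^ n := pow_le_pow_of_le_one hr0 hr.le (by omega)
    linarith [hle n]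
  rw [map_sub, sub_eq_zero] at hzero
  exact hzero

end Vale.Agent.Lib.P184c
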