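import Vale.Agent.Lib.P184c.Cor

/-!
# P184c: amenable centralisers

A sandwich theorem: on an amenable group `Z` with a central element `g` and a subadditive `p` with
`k τ ≤ p (g ^ k)`, there is a homomorphism `φ : Z → ℝ` with `- p z⁻¹ ≤ φ z ≤ p z` and `τ ≤ φ g`.
Consequently the `ℓ¹` trace vanishes at undistorted elements with amenable centraliser.
-/

namespace Vale.Agent.Lib.P184c

open Vale.Agent.Lib.P184

universe u

/-- `f` is a bounded real function. -/
def BddFun {H : Type u} (f : H → ℝ) : Prop := ∃ C : ℝ, ∀ x, |f x| ≤ C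

/-- `m` is a left-invariant mean on the bounded real functions on `H`: additive, monotone,
normalised and invariant under left translations (values on unbounded functions are irrelevant). -/
def IsInvMean {H : Type u} [Group H] (m : (H → ℝ) → ℝ) : Prop :=
  (∀ f f', BddFun f → BddFun f' → m (fun x => f x + f' x) = m f + m f') ∧
  (∀ f f', BddFun f → BddFun f' → (∀ x, f x ≤ f' x) → m f ≤ m f') ∧
  (∀ c : ℝ, m (fun _ => c) = c) ∧
  (∀ (f : H → ℝ) (h : H), BddFun f → m (fun x => f (h * x)) = m f)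

/-- `H` is amenable (as a discrete group). -/
def AmenableGrp (H : Type u) [Group H] : Prop := ∃ m : (H → ℝ) → ℝ, IsInvMean m

section sandwich

variable {Z : Type u} [Group Z] (p : Z → ℝ) (g : Z) (τ : ℝ)

/-- The auxiliary function `F x = inf_k (p (x g^k) - k τ)`. -/
noncomputable def sandF (x : Z) : ℝ := ⨅ k : ℕ, (p (x * g ^ k) - k * τ)

variable {p g τ}

lemma sandF_bdd (hp : ∀ x y, p (x * y) ≤ p x + p y) (hτ : ∀ k : ℕ, k * τ ≤ p (g ^ k)) (x : Z) :
    BddBelow (Set.range fun k : ℕ => p (x * g ^ k) - k * τ) := by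
  refine ⟨- p x⁻¹, ?_⟩
  rintro _ ⟨k, rfl⟩
  have h1 := hp x⁻¹ (x * g ^ k)
  rw [inv_mul_cancel_left] at h1
  have h2 := hτ k
  simp only
  linarith

lemma sandF_mul_le (hp : ∀ x y, p (x * y) ≤ p x + p y) (hτ : ∀ k : ℕ, k * τ ≤ p (g ^ k))
    (z x : Z) : sandF p g τ (z * x) ≤ p z + sandF p g τ x := by
  have : sandF p g τ (z * x) - p z ≤ sandF p g τ x := by
    refine le_ciInf fun k => ?_
    have h1 : sandF p g τ (z * x) ≤ p (z * x * g ^ k) - k * τ :=
      ciInf_le (sandF_bdd hp hτ (z * x)) k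
    have h2 := hp z (x * g ^ k)
    rw [← mul_assoc] at h2
    linarith
  linarith

lemma sandF_le_mul (hp : ∀ x y, p (x * y) ≤ p x + p y) (hτ : ∀ k : ℕ, k * τ ≤ p (g ^ k))
    (z x : Z) : sandF p g τ x ≤ p z⁻¹ + sandF p g τ (z * x) := by
  have := sandF_mul_le hp hτ z⁻¹ (z * x)
  rwa [inv_mul_cancel_left] at this

lemma sandF_g (hp : ∀ x y, p (x * y) ≤ p x + p y) (hτ : ∀ k : ℕ, k * τ ≤ p (g ^ k))
    (hc : ∀ z : Z, g * z = z * g) (x : Z) : τ + sandF p g τ x ≤ sandF p g τ (g * x) := by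
  refine le_ciInf fun k => ?_
  have h1 : sandF p g τ x ≤ p (x * g ^ (k + 1)) - ((k + 1 : ℕ) : ℝ) * τ :=
    ciInf_le (sandF_bdd hp hτ x) (k + 1)
  have h2 : g * x * g ^ k = x * g ^ (k + 1) := by
    rw [hc x, mul_assoc, pow_succ']
  rw [h2]
  push_cast at h1
  linarith

theorem exists_hom_of_mean (hZ : AmenableGrp Z) (hp : ∀ x y, p (x * y) ≤ p x + p y)
    (hτ : ∀ k : ℕ, k * τ ≤ p (g ^ k)) (hc : ∀ z : Z, g * z = z * g) :
    ∃ φ : Z → ℝ, (∀ z w, φ (z * w) = φ z + φ w) ∧ (∀ z, φ z ≤ p z) ∧ (∀ z, - p z⁻¹ ≤ φ z) ∧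
      τ ≤ φ g := by
  obtain ⟨m, hadd, hmono, hconst, hinv⟩ := hZ
  set D : Z → Z → ℝ := fun z x => sandF p g τ (z * x) - sandF p g τ x with hD
  have hup : ∀ z x, D z x ≤ p z := fun z x => by
    have := sandF_mul_le hp hτ z x
    simp only [hD]; linarith
  have hlo : ∀ z x, - p z⁻¹ ≤ D z x := fun z x => by
    have := sandF_le_mul hp hτ z x
    simp only [hD]; linarith
  have hb : ∀ z, BddFun (D z) := fun z => by
    refine ⟨max (p z) (p z⁻¹), fun x => ?_⟩
    rw [abs_le]
    constructor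
    · have := hlo z x
      have h2 := le_max_right (p z) (p z⁻¹)
      linarith
    · exact (hup z x).trans (le_max_left _ _)
  have hbc : ∀ c : ℝ, BddFun (fun _ : Z => c) := fun c => ⟨|c|, fun _ => le_rfl⟩
  refine ⟨fun z => m (D z), ?_, ?_, ?_, ?_⟩
  · intro z w
    have h1 : D (z * w) = fun x => D z (w * x) + D w x := by
      funext x
      simp only [hD, mul_assoc]
      ring
    have hbs : BddFun (fun x => D z (w * x)) := by
      obtain ⟨C, hC⟩ := hb z
      exact ⟨C, fun x => hC _⟩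
    show m (D (z * w)) = m (D z) + m (D w)
    rw [h1, hadd _ _ hbs (hb w), hinv (D z) w (hb z)]
  · intro z
    have := hmono (D z) (fun _ => p z) (hb z) (hbc _) (hup z)
    rwa [hconst] at this
  · intro z
    have := hmono (fun _ => - p z⁻¹) (D z) (hbc _) (hb z) (hlo z)
    rwa [hconst] at this
  · have := hmono (fun _ => τ) (D g) (hbc _) (hb g) (fun x => by
      have := sandF_g hp hτ hc x
      simp only [hD]; linarith)
    rwa [hconst] at this

end sandwich

variable {G : Type u} [Group G] {q : ℕ}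

/-- The `ℓ¹` trace vanishes at `[g]` if the centraliser of `g` is amenable and `g` is undistorted
for some subadditive function `l` on `G`: `c k ≤ l (g ^ k)` with `c > 0`. -/
theorem hs_zero_of_amenable (e : Fin q → Fin q → G → ℂ) (he : IsL1Idempotent e) (g : G)
    (hZ : AmenableGrp (Subgroup.centralizer {g})) (l : G → ℝ) (hl : ∀ x y, l (x * y) ≤ l x + l y)
    (c : ℝ) (hc : 0 < c) (hg : ∀ k : ℕ, k * c ≤ l (g ^ k)) :
    hsCoeff e (ConjClasses.mk g) = 0 := by
  set gZ : Subgroup.centralizer {g} := ⟨g, Subgroup.mem_centralizer_iff.mpr (by simp)⟩ with hgZ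
  obtain ⟨φ, h1, h2, h3, h4⟩ := exists_hom_of_mean (Z := Subgroup.centralizer {g})
    (p := fun z => l (z : G)) (g := gZ) (τ := c) hZ (fun x y => by simpa using hl x y)
    (fun k => by simpa [hgZ] using hg k)
    (fun z => by
      apply Subtype.ext
      have := Subgroup.mem_centralizer_iff.mp z.2 g (by simp)
      simpa [hgZ] using this)
  refine hs_zero_of_length e he g (fun x => max (l x) (l x⁻¹)) ?_ φ h1 ?_ ?_
  · intro x y
    refine max_le ?_ ?_
    · exact (hl x y).trans (add_le_add (le_max_left _ _) (le_max_left _ _))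
    · rw [mul_inv_rev]
      have := hl y⁻¹ x⁻¹
      have h5 := le_max_right (l x) (l x⁻¹)
      have h6 := le_max_right (l y) (l y⁻¹)
      linarith
  · intro z
    rw [abs_le]
    constructor
    · have := h3 z
      have h5 := le_max_right (l (z : G)) (l (z : G)⁻¹)
      simp only [Subgroup.coe_inv] at this
      linarith
    · exact (h2 z).trans (le_max_left _ _)
  · have : c ≤ φ gZ := h4
    intro h0
    rw [hgZ] at this
    rw [h0] at this
    linarith

end Vale.Agent.Lib.P184c
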