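import Vale.Agent.Lib.P184.Defs

/-!
P184c: the l1 crossed product `CP g` of the bounded functions on the conjugacy class of `g` by `G`
(acting by conjugation).  Elements: functions `F : G → Cl g → ℂ` with `‖F h c‖ ≤ a h`, `a` summable.
Product `(F * F') h c = ∑' k, F (h k⁻¹) (k • c) * F' k c`.
-/

namespace Vale.Agent.Lib.P184c

variable {G : Type*} [Group G]

/-- The conjugacy class of `g`, as a type. -/
abbrev Cl (g : G) : Type _ := {c : G // ConjClasses.mk c = ConjClasses.mk g}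

/-- Conjugation action of `G` on the class: `k • c = k c k⁻¹`. -/
def act {g : G} (k : G) (c : Cl g) : Cl g :=
  ⟨k * c.1 * k⁻¹, by
    refine Eq.trans ?_ c.2
    exact ConjClasses.mk_eq_mk_iff_isConj.mpr (isConj_iff.mpr ⟨k⁻¹, by group⟩)⟩

@[simp] lemma act_val {g : G} (k : G) (c : Cl g) : (act k c).1 = k * c.1 * k⁻¹ := rfl

lemma act_one {g : G} (c : Cl g) : act 1 c = c := by
  apply Subtype.ext; simp

lemma act_mul {g : G} (a b : G) (c : Cl g) : act (a * b) c = act a (act b c) := by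
  apply Subtype.ext; simp [mul_assoc]

/-- `F` is dominated by the summable function `a` of the group variable. -/
def Dom {g : G} (F : G → Cl g → ℂ) (a : G → ℝ) : Prop :=
  Summable a ∧ ∀ h c, ‖F h c‖ ≤ a h

lemma Dom.nonneg {g : G} {F : G → Cl g → ℂ} {a : G → ℝ} (h : Dom F a) (x : G) : 0 ≤ a x :=
  le_trans (norm_nonneg _) (h.2 x ⟨g, rfl⟩)

/-- product of kernels -/
noncomputable def mulF {g : G} (F F' : G → Cl g → ℂ) (h : G) (c : Cl g) : ℂ :=
  ∑' k, F (h * k⁻¹) (act k c) * F' k c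

/-- real convolution `(a ⋆ b) h = ∑' k, a (h k⁻¹) b k` -/
noncomputable def cvR (a b : G → ℝ) (h : G) : ℝ := ∑' k, a (h * k⁻¹) * b k

/-- U2a.  (`a (h k⁻¹) ≤ ∑' a`, so the terms are dominated by `(∑' a) * b k`.) -/
lemma summable_cvR_term (a b : G → ℝ) (ha : Summable a) (hb : Summable b) (ha0 : ∀ x, 0 ≤ a x)
    (hb0 : ∀ x, 0 ≤ b x) (h : G) : Summable fun k => a (h * k⁻¹) * b k := by
  refine Summable.of_nonneg_of_le (fun k => mul_nonneg (ha0 _) (hb0 _)) (fun k => ?_)
    (hb.mul_left (∑' x, a x))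
  exact mul_le_mul_of_nonneg_right (ha.le_tsum _ (fun y _ => ha0 y)) (hb0 k)

/-- U2a.  Fubini for nonnegative terms and the substitution `h ↦ h k`. -/
lemma hasSum_cvR (a b : G → ℝ) (ha : Summable a) (hb : Summable b) (ha0 : ∀ x, 0 ≤ a x)
    (hb0 : ∀ x, 0 ≤ b x) : HasSum (cvR a b) ((∑' x, a x) * ∑' x, b x) := by
  set f' : G × G → ℝ := fun p => a (p.2 * p.1⁻¹) * b p.1 with hf'
  have hrow : ∀ k : G, HasSum (fun h => a (h * k⁻¹) * b k) ((∑' x, a x) * b k) := by
    intro k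
    have h1 : HasSum (fun h => a (h * k⁻¹)) (∑' x, a x) :=
      (Equiv.hasSum_iff (Equiv.mulRight k⁻¹)).mpr ha.hasSum
    exact h1.mul_right (b k)
  have hs' : Summable f' := by
    rw [summable_prod_of_nonneg (fun p => mul_nonneg (ha0 _) (hb0 _))]
    refine ⟨fun k => (hrow k).summable, ?_⟩
    have : (fun k => ∑' h, f' (k, h)) = fun k => (∑' x, a x) * b k := by
      funext k
      exact (hrow k).tsum_eq
    rw [this]
    exact hb.mul_left _
  have htot : ∑' p, f' p = (∑' x, a x) * ∑' x, b x := by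
    rw [hs'.tsum_prod]
    have : (fun k => ∑' h, f' (k, h)) = fun k => (∑' x, a x) * b k := by
      funext k
      exact (hrow k).tsum_eq
    rw [this, tsum_mul_left]
  set f : G × G → ℝ := fun p => a (p.1 * p.2⁻¹) * b p.2 with hf
  have hfs : HasSum f ((∑' x, a x) * ∑' x, b x) := by
    have h1 : HasSum f' ((∑' x, a x) * ∑' x, b x) := htot ▸ hs'.hasSum
    exact (Equiv.hasSum_iff (Equiv.prodComm G G)).mpr h1
  exact hfs.prod_fiberwise (fun h => (summable_cvR_term a b ha hb ha0 hb0 h).hasSum)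

/-- U2a -/
lemma summable_mulF_term {g : G} {F F' : G → Cl g → ℂ} {a b : G → ℝ} (hF : Dom F a)
    (hF' : Dom F' b) (h : G) (c : Cl g) : Summable fun k => F (h * k⁻¹) (act k c) * F' k c := by
  refine Summable.of_norm_bounded
    (summable_cvR_term a b hF.1 hF'.1 hF.nonneg hF'.nonneg h) (fun k => ?_)
  rw [norm_mul]
  exact mul_le_mul (hF.2 _ _) (hF'.2 _ _) (norm_nonneg _) (hF.nonneg _)

/-- U2a -/
lemma dom_mulF {g : G} {F F' : G → Cl g → ℂ} {a b : G → ℝ} (hF : Dom F a) (hF' : Dom F' b) :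
    Dom (mulF F F') (cvR a b) := by
  refine ⟨(hasSum_cvR a b hF.1 hF'.1 hF.nonneg hF'.nonneg).summable, fun h c => ?_⟩
  refine tsum_of_norm_bounded
    (summable_cvR_term a b hF.1 hF'.1 hF.nonneg hF'.nonneg h).hasSum (fun k => ?_)
  rw [norm_mul]
  exact mul_le_mul (hF.2 _ _) (hF'.2 _ _) (norm_nonneg _) (hF.nonneg _)

/-- The l1 crossed product. -/
@[ext] structure CP (g : G) where
  f : G → Cl g → ℂ
  dom : ∃ a, Dom f a

namespace CP

variable {g : G}

open Classical in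
/-- the unit: the delta function at `1` -/
noncomputable def oneF (h : G) (_ : Cl g) : ℂ := if h = 1 then 1 else 0

open Classical in
lemma dom_oneF : Dom (oneF (g := g)) (fun h => if h = 1 then 1 else 0) := by
  refine ⟨(hasSum_ite_eq (1 : G) (1 : ℝ)).summable, fun h c => ?_⟩
  unfold oneF
  by_cases hh : h = 1 <;> simp [hh]

instance : Zero (CP g) := ⟨⟨fun _ _ => 0, ⟨fun _ => 0, summable_zero, by simp⟩⟩⟩
noncomputable instance : One (CP g) := ⟨⟨oneF, ⟨_, dom_oneF⟩⟩⟩
instance : Neg (CP g) := ⟨fun F => ⟨fun h c => -F.f h c, by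
  obtain ⟨a, ha⟩ := F.dom
  exact ⟨a, ha.1, fun h c => by rw [norm_neg]; exact ha.2 h c⟩⟩⟩
instance : Add (CP g) := ⟨fun F F' => ⟨fun h c => F.f h c + F'.f h c, by
  obtain ⟨a, ha⟩ := F.dom
  obtain ⟨b, hb⟩ := F'.dom
  exact ⟨fun h => a h + b h, ha.1.add hb.1,
    fun h c => (norm_add_le _ _).trans (add_le_add (ha.2 h c) (hb.2 h c))⟩⟩⟩
noncomputable instance : Mul (CP g) := ⟨fun F F' => ⟨mulF F.f F'.f, by
  obtain ⟨a, ha⟩ := F.dom
  obtain ⟨b, hb⟩ := F'.dom
  exact ⟨_, dom_mulF ha hb⟩⟩⟩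

@[simp] lemma zero_f (h : G) (c : Cl g) : (0 : CP g).f h c = 0 := rfl
lemma one_f (h : G) (c : Cl g) : (1 : CP g).f h c = oneF h c := rfl
@[simp] lemma neg_f (F : CP g) (h : G) (c : Cl g) : (-F).f h c = -F.f h c := rfl
@[simp] lemma add_f (F F' : CP g) (h : G) (c : Cl g) : (F + F').f h c = F.f h c + F'.f h c := rfl
lemma mul_f (F F' : CP g) (h : G) (c : Cl g) :
    (F * F').f h c = ∑' k, F.f (h * k⁻¹) (act k c) * F'.f k c := rfl

/-- the reindexing `(n, k) ↦ (k, n k⁻¹)` -/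
def reidx (G : Type*) [Group G] : G × G ≃ G × G where
  toFun p := (p.2, p.1 * p.2⁻¹)
  invFun p := (p.2 * p.1, p.1)
  left_inv p := by simp
  right_inv p := by simp

omit [Group G] in
lemma le_tsum_of_dom {a : G → ℝ} (ha : Summable a) (ha0 : ∀ x, 0 ≤ a x) (x : G) :
    a x ≤ ∑' y, a y := ha.le_tsum x (fun y _ => ha0 y)

/-- U2b.  Both sides are `∑ over (k, m)` of `F (h k⁻¹ m⁻¹) (m k • c) * F' m (k • c) * F'' k c`
(substitution `n = m k`); the double family is summable because one factor is bounded. -/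
protected lemma mul_assoc' (F F' F'' : CP g) : F * F' * F'' = F * (F' * F'') := by
  obtain ⟨a, ha⟩ := F.dom
  obtain ⟨b, hb⟩ := F'.dom
  obtain ⟨d, hd⟩ := F''.dom
  ext h c
  set T : G → G → ℂ := fun k m =>
    F.f (h * k⁻¹ * m⁻¹) (act m (act k c)) * F'.f m (act k c) * F''.f k c with hTdef
  have hT : Summable (fun p : G × G => T p.1 p.2) := by
    have h1 : Summable (fun p : G × G => d p.1 * b p.2) :=
      hd.1.mul_of_nonneg hb.1 (fun x => hd.nonneg x) (fun x => hb.nonneg x)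
    refine Summable.of_norm_bounded (g := fun p : G × G => (∑' y, a y) * (d p.1 * b p.2))
      (h1.mul_left _) ?_
    intro p
    simp only [hTdef, norm_mul]
    have e1 : ‖F.f (h * p.1⁻¹ * p.2⁻¹) (act p.2 (act p.1 c))‖ ≤ ∑' y, a y :=
      (ha.2 _ _).trans (le_tsum_of_dom ha.1 (fun x => ha.nonneg x) _)
    have e2 := hb.2 p.2 (act p.1 c)
    have e3 := hd.2 p.1 c
    have n1 := norm_nonneg (F.f (h * p.1⁻¹ * p.2⁻¹) (act p.2 (act p.1 c)))
    have n2 := norm_nonneg (F'.f p.2 (act p.1 c))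
    have n3 := norm_nonneg (F''.f p.1 c)
    calc ‖F.f (h * p.1⁻¹ * p.2⁻¹) (act p.2 (act p.1 c))‖ * ‖F'.f p.2 (act p.1 c)‖ * ‖F''.f p.1 c‖
        ≤ (∑' y, a y) * b p.2 * d p.1 :=
          mul_le_mul (mul_le_mul e1 e2 n2 (n1.trans e1)) e3 n3
            (mul_nonneg (n1.trans e1) (n2.trans e2))
      _ = (∑' y, a y) * (d p.1 * b p.2) := by ring
  have L : (F * F' * F'').f h c = ∑' k, ∑' m, T k m := by
    rw [mul_f]
    refine tsum_congr fun k => ?_
    rw [mul_f, ← tsum_mul_right]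
  have R : (F * (F' * F'')).f h c = ∑' n, ∑' k, T k (n * k⁻¹) := by
    rw [mul_f]
    refine tsum_congr fun n => ?_
    rw [mul_f, ← tsum_mul_left]
    refine tsum_congr fun k => ?_
    simp only [hTdef]
    have e1 : h * k⁻¹ * (n * k⁻¹)⁻¹ = h * n⁻¹ := by group
    have e2 : act (n * k⁻¹) (act k c) = act n c := by
      rw [← act_mul]; congr 1; group
    rw [e1, e2]; ring
  rw [L, R]
  calc ∑' k, ∑' m, T k m = ∑' p : G × G, T p.1 p.2 := (hT.tsum_prod).symm
    _ = ∑' q : G × G, T ((reidx G) q).1 ((reidx G) q).2 :=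
        ((reidx G).tsum_eq (fun p : G × G => T p.1 p.2)).symm
    _ = ∑' n, ∑' k, T k (n * k⁻¹) :=
        (((reidx G).summable_iff (f := fun p : G × G => T p.1 p.2)).mpr hT).tsum_prod

/-- U2c -/
protected lemma one_mul' (F : CP g) : 1 * F = F := by
  ext h c
  rw [mul_f, tsum_eq_single h]
  · simp [one_f, oneF]
  · intro k hk
    have : h * k⁻¹ ≠ 1 := fun hh => hk (by rw [mul_inv_eq_one] at hh; exact hh.symm)
    simp [one_f, oneF, this]

/-- U2c -/
protected lemma mul_one' (F : CP g) : F * 1 = F := by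
  ext h c
  rw [mul_f, tsum_eq_single 1]
  · simp [one_f, oneF, act_one]
  · intro k hk
    simp [one_f, oneF, hk]

/-- U2d -/
protected lemma left_distrib' (F F' F'' : CP g) : F * (F' + F'') = F * F' + F * F'' := by
  ext h c
  obtain ⟨a, ha⟩ := F.dom
  obtain ⟨b, hb⟩ := F'.dom
  obtain ⟨b', hb'⟩ := F''.dom
  rw [add_f, mul_f, mul_f, mul_f,
    ← (summable_mulF_term ha hb h c).tsum_add (summable_mulF_term ha hb' h c)]
  exact tsum_congr (fun k => by rw [add_f, mul_add])

/-- U2d -/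
protected lemma right_distrib' (F F' F'' : CP g) : (F + F') * F'' = F * F'' + F' * F'' := by
  ext h c
  obtain ⟨a, ha⟩ := F.dom
  obtain ⟨a', ha'⟩ := F'.dom
  obtain ⟨b, hb⟩ := F''.dom
  rw [add_f, mul_f, mul_f, mul_f,
    ← (summable_mulF_term ha hb h c).tsum_add (summable_mulF_term ha' hb h c)]
  exact tsum_congr (fun k => by rw [add_f, add_mul])

noncomputable instance : Ring (CP g) :=
  Ring.ofMinimalAxioms
    (fun a b c => by ext h x; simp [add_assoc])
    (fun a => by ext h x; simp)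
    (fun a => by ext h x; simp)
    CP.mul_assoc' CP.one_mul' CP.mul_one' CP.left_distrib' CP.right_distrib'

@[simp] lemma sub_f (F F' : CP g) (h : G) (c : Cl g) : (F - F').f h c = F.f h c - F'.f h c := by
  rw [sub_eq_add_neg, add_f, neg_f, sub_eq_add_neg]

lemma sum_f {ι : Type*} (s : Finset ι) (F : ι → CP g) (h : G) (c : Cl g) :
    (∑ i ∈ s, F i).f h c = ∑ i ∈ s, (F i).f h c := by
  classical
  induction s using Finset.induction_on with
  | empty => simp
  | insert a s ha ih => rw [Finset.sum_insert ha, Finset.sum_insert ha, add_f, ih]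

end CP

end Vale.Agent.Lib.P184c
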