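import Vale.Agent.Lib.P184c.Abel

/-!
# P184c: centre-by-finite centralisers

If the centre of the centraliser `Z(g)` has finite index in `Z(g)` (for instance `Z(g)` commutative
or virtually cyclic) and `g` is linearly undistorted, the `ℓ¹` trace vanishes at `[g]`.
Proof: Schur's transfer `z ↦ z ^ n` into the centre, and the sandwich theorem on the centre.
-/

namespace Vale.Agent.Lib.P184c

open Vale.Agent.Lib.P184

universe u

variable {G : Type u} [Group G] {q : ℕ}

lemma additive_pow {Z : Type u} [Group Z] (φ : Z → ℝ) (hφ : ∀ z w, φ (z * w) = φ z + φ w) (z : Z)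
    (n : ℕ) : φ (z ^ n) = n * φ z := by
  induction n with
  | zero =>
    have h1 := hφ 1 1
    rw [mul_one] at h1
    simp only [pow_zero, Nat.cast_zero, zero_mul]
    linarith
  | succ n ih =>
    rw [pow_succ, hφ, ih]
    push_cast
    ring

theorem hs_zero_of_center_finiteIndex (e : Fin q → Fin q → G → ℂ) (he : IsL1Idempotent e) (g : G)
    (hfi : (Subgroup.center (Subgroup.centralizer {g})).FiniteIndex)
    (l : G → ℝ) (hl : ∀ x y, l (x * y) ≤ l x + l y)
    (c : ℝ) (hc : 0 < c) (hg : ∀ k : ℕ, k * c ≤ l (g ^ k)) :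
    hsCoeff e (ConjClasses.mk g) = 0 := by
  set Z := Subgroup.centralizer {g} with hZ
  set gZ : Z := ⟨g, Subgroup.mem_centralizer_iff.mpr (by simp)⟩ with hgZ
  have hcen : ∀ z : Z, z * gZ = gZ * z := by
    intro z
    apply Subtype.ext
    have := Subgroup.mem_centralizer_iff.mp z.2 g (by simp)
    simpa [hgZ] using this.symm
  set gC : Subgroup.center Z := ⟨gZ, Subgroup.mem_center_iff.mpr hcen⟩ with hgC
  have hcm : ∀ a b : Subgroup.center Z, a * b = b * a := fun a b =>
    Subtype.ext (Subgroup.mem_center_iff.mp b.2 a.1)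
  obtain ⟨φ0, h1, h2, h3, h4⟩ := exists_hom_of_mean (Z := Subgroup.center Z)
    (p := fun z => l ((z : Z) : G)) (g := gC) (τ := c) (amenable_of_comm hcm)
    (fun x y => by simpa using hl ((x : Z) : G) ((y : Z) : G))
    (fun k => by simpa [hgC, hgZ] using hg k)
    (fun z => hcm _ _)
  set n : ℕ := (Subgroup.center Z).index with hn
  have hn0 : n ≠ 0 := hfi.index_ne_zero
  obtain ⟨n', hn'⟩ : ∃ n', n = n' + 1 := ⟨n - 1, by omega⟩
  have hnR : (0 : ℝ) < n := by exact_mod_cast Nat.pos_of_ne_zero hn0
  have hcast : ((n' : ℝ) + 1) = (n : ℝ) := by rw [hn']; push_cast; ring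
  set T : Z →* Subgroup.center Z := MonoidHom.transferCenterPow Z with hT
  have hTa : ∀ z : Z, ((T z : Z) : G) = (z : G) ^ n := by
    intro z
    have := MonoidHom.transferCenterPow_apply (G := Z) z
    rw [hT, this]
    simp [hn]
  refine hs_zero_of_length e he g (fun x => max (l x) (l x⁻¹)) ?_ (fun z => φ0 (T z) / n) ?_ ?_ ?_
  · intro x y
    refine max_le ?_ ?_
    · exact (hl x y).trans (add_le_add (le_max_left _ _) (le_max_left _ _))
    · rw [mul_inv_rev]
      have := hl y⁻¹ x⁻¹
      have h5 := le_max_right (l x) (l x⁻¹)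
      have h6 := le_max_right (l y) (l y⁻¹)
      linarith
  · intro z w
    simp only [map_mul, h1]
    ring
  · intro z
    rw [abs_le]
    constructor
    · have a1 := h3 (T z)
      have a2 : l (((T z)⁻¹ : Subgroup.center Z) : Z) = l (((z : G)⁻¹) ^ n) := by
        simp only [Subgroup.coe_inv, hTa, inv_pow]
      have a3 := subadd_pow l hl (z : G)⁻¹ n'
      rw [← hn', hcast] at a3
      have a4 := le_max_right (l (z : G)) (l (z : G)⁻¹)
      rw [a2] at a1
      rw [le_div_iff₀ hnR]
      nlinarith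
    · have a1 := h2 (T z)
      simp only [hTa] at a1
      have a3 := subadd_pow l hl (z : G) n'
      rw [← hn', hcast] at a3
      have a4 := le_max_left (l (z : G)) (l (z : G)⁻¹)
      rw [div_le_iff₀ hnR]
      nlinarith
  · have a1 : T gZ = gC ^ n := by
      apply Subtype.ext
      apply Subtype.ext
      rw [hTa]
      simp [hgC, hgZ]
    have a2 : φ0 (T gZ) = n * φ0 gC := by rw [a1, additive_pow φ0 h1]
    show φ0 (T gZ) / n ≠ 0
    rw [a2, mul_div_cancel_left₀ _ hnR.ne']
    linarith

end Vale.Agent.Lib.P184c
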