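import Vale.Agent.Lib.P184c.Final

/-!
P184c: corollaries of `hs_zero_of_length`.
-/

namespace Vale.Agent.Lib.P184c

open Vale.Agent.Lib.P184

variable {G : Type*} [Group G] {q : ℕ}

/-- `g` as an element of its centraliser -/
def selfC (g : G) : Subgroup.centralizer {g} := ⟨g, Subgroup.mem_centralizer_iff.mpr (by simp)⟩

/-- quasimorphism version -/
theorem hs_zero_of_quasi (e : Fin q → Fin q → G → ℂ) (he : IsL1Idempotent e) (g : G)
    (ψ : G → ℝ) (D : ℝ) (hψ : ∀ x y, |ψ (x * y) - ψ x - ψ y| ≤ D)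
    (hadd : ∀ z w : Subgroup.centralizer {g}, ψ (z * w) = ψ z + ψ w) (hg : ψ g ≠ 0) :
    hsCoeff e (ConjClasses.mk g) = 0 := by
  have hD : 0 ≤ D := le_trans (abs_nonneg _) (hψ 1 1)
  refine hs_zero_of_length e he g (fun x => |ψ x| + D) ?_ (fun z => ψ z) ?_ ?_ hg
  · intro x y
    have h1 := hψ x y
    have h2 : |ψ (x * y)| ≤ |ψ (x * y) - ψ x - ψ y| + |ψ x| + |ψ y| := by
      have : ψ (x * y) = (ψ (x * y) - ψ x - ψ y) + ψ x + ψ y := by ring
      calc |ψ (x * y)| = |(ψ (x * y) - ψ x - ψ y) + ψ x + ψ y| := by rw [← this]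
        _ ≤ |(ψ (x * y) - ψ x - ψ y) + ψ x| + |ψ y| := abs_add_le _ _
        _ ≤ |ψ (x * y) - ψ x - ψ y| + |ψ x| + |ψ y| := by
          have := abs_add_le (ψ (x * y) - ψ x - ψ y) (ψ x)
          linarith
    show |ψ (x * y)| + D ≤ (|ψ x| + D) + (|ψ y| + D)
    linarith
  · intro z w
    exact hadd z w
  · intro z
    show |ψ z| ≤ |ψ z| + D
    linarith

/-- homomorphism version -/
theorem hs_zero_of_hom (e : Fin q → Fin q → G → ℂ) (he : IsL1Idempotent e) (g : G)
    (ψ : G → ℝ) (hψ : ∀ x y, ψ (x * y) = ψ x + ψ y) (hg : ψ g ≠ 0) :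
    hsCoeff e (ConjClasses.mk g) = 0 :=
  hs_zero_of_quasi e he g ψ 0 (fun x y => by rw [hψ]; simp) (fun z w => hψ z w) hg

/-- isometric action version (Busemann type function) -/
theorem hs_zero_of_action (e : Fin q → Fin q → G → ℂ) (he : IsL1Idempotent e) (g : G)
    {X : Type*} [PseudoMetricSpace X] [MulAction G X]
    (hiso : ∀ (h : G) (x y : X), dist (h • x) (h • y) = dist x y)
    (β : X → ℝ) (hβ : ∀ x y, |β x - β y| ≤ dist x y)
    (hZ : ∀ (z : Subgroup.centralizer {g}) (x y : X),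
      β ((z : G) • x) - β x = β ((z : G) • y) - β y)
    (p : X) (hg : β (g • p) ≠ β p) :
    hsCoeff e (ConjClasses.mk g) = 0 := by
  refine hs_zero_of_length e he g (fun x => dist (x • p) p) ?_
    (fun z => β ((z : G) • p) - β p) ?_ ?_ (sub_ne_zero.mpr hg)
  · intro x y
    show dist ((x * y) • p) p ≤ dist (x • p) p + dist (y • p) p
    calc dist ((x * y) • p) p ≤ dist ((x * y) • p) (x • p) + dist (x • p) p := dist_triangle _ _ _
      _ = dist (y • p) p + dist (x • p) p := by rw [mul_smul, hiso]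
      _ = dist (x • p) p + dist (y • p) p := add_comm _ _
  · intro z w
    show β (((z * w : Subgroup.centralizer {g}) : G) • p) - β p = _
    have h1 := hZ z ((w : G) • p) p
    have h2 : ((z * w : Subgroup.centralizer {g}) : G) • p = (z : G) • ((w : G) • p) := by
      rw [Subgroup.coe_mul, mul_smul]
    rw [h2]
    linarith
  · intro z
    exact hβ _ _

/-- linear version: a common eigenvector of the centraliser on which `g` acts with modulus `≠ 1` -/
theorem hs_zero_of_eigen (e : Fin q → Fin q → G → ℂ) (he : IsL1Idempotent e) (g : G)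
    {𝕜 V : Type*} [NontriviallyNormedField 𝕜] [NormedAddCommGroup V] [NormedSpace 𝕜 V]
    (ρ : G →* (V →L[𝕜] V)) (v : V) (hv : v ≠ 0) (χ : Subgroup.centralizer {g} → 𝕜)
    (hχ : ∀ z : Subgroup.centralizer {g}, ρ z v = χ z • v) (hg : ‖χ (selfC g)‖ ≠ 1) :
    hsCoeff e (ConjClasses.mk g) = 0 := by
  have hvn : 0 < ‖v‖ := norm_pos_iff.mpr hv
  have hmul : ∀ z w, χ (z * w) = χ z * χ w := by
    intro z w
    have h1 := hχ (z * w)
    rw [Subgroup.coe_mul, map_mul, ContinuousLinearMap.mul_apply, hχ w, map_smul, hχ z,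
      smul_smul] at h1
    have h2 : (χ w * χ z - χ (z * w)) • v = 0 := by rw [sub_smul, h1, sub_self]
    rcases smul_eq_zero.mp h2 with h3 | h3
    · rw [mul_comm]; exact (sub_eq_zero.mp h3).symm
    · exact absurd h3 hv
  have hone : χ 1 = 1 := by
    have h1 := hχ 1
    rw [Subgroup.coe_one, map_one, ContinuousLinearMap.one_apply] at h1
    have h2 : (1 - χ 1) • v = 0 := by rw [sub_smul, one_smul, ← h1, sub_self]
    rcases smul_eq_zero.mp h2 with h3 | h3
    · exact (sub_eq_zero.mp h3).symm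
    · exact absurd h3 hv
  have hne : ∀ z, χ z ≠ 0 := by
    intro z hz
    have := hmul z z⁻¹
    rw [mul_inv_cancel, hone, hz, zero_mul] at this
    exact one_ne_zero this
  have hpos : ∀ x : G, 0 < ‖ρ x‖ := by
    intro x
    rw [norm_pos_iff]
    intro h0
    have : ρ (x⁻¹ * x) v = 0 := by
      rw [map_mul, ContinuousLinearMap.mul_apply, h0]; simp
    rw [inv_mul_cancel, map_one, ContinuousLinearMap.one_apply] at this
    exact hv this
  have hsub : ∀ x y : G, Real.log ‖ρ (x * y)‖ ≤ Real.log ‖ρ x‖ + Real.log ‖ρ y‖ := by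
    intro x y
    rw [← Real.log_mul (hpos x).ne' (hpos y).ne']
    apply Real.log_le_log (hpos _)
    rw [map_mul]
    exact norm_mul_le _ _
  have hle : ∀ z : Subgroup.centralizer {g}, Real.log ‖χ z‖ ≤ Real.log ‖ρ (z : G)‖ := by
    intro z
    apply Real.log_le_log (norm_pos_iff.mpr (hne z))
    have h1 : ‖χ z‖ * ‖v‖ ≤ ‖ρ (z : G)‖ * ‖v‖ := by
      rw [← norm_smul, ← hχ z]
      exact ContinuousLinearMap.le_opNorm _ _
    exact le_of_mul_le_mul_right h1 hvn
  refine hs_zero_of_length e he g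
    (fun x => max (Real.log ‖ρ x‖) (Real.log ‖ρ x⁻¹‖)) ?_ (fun z => Real.log ‖χ z‖) ?_ ?_ ?_
  · intro x y
    apply max_le
    · calc Real.log ‖ρ (x * y)‖ ≤ Real.log ‖ρ x‖ + Real.log ‖ρ y‖ := hsub x y
        _ ≤ _ := add_le_add (le_max_left _ _) (le_max_left _ _)
    · rw [mul_inv_rev]
      calc Real.log ‖ρ (y⁻¹ * x⁻¹)‖ ≤ Real.log ‖ρ y⁻¹‖ + Real.log ‖ρ x⁻¹‖ := hsub _ _
        _ = Real.log ‖ρ x⁻¹‖ + Real.log ‖ρ y⁻¹‖ := add_comm _ _
        _ ≤ _ := add_le_add (le_max_right _ _) (le_max_right _ _)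
  · intro z w
    show Real.log ‖χ (z * w)‖ = _
    rw [hmul, norm_mul, Real.log_mul (norm_ne_zero_iff.mpr (hne z)) (norm_ne_zero_iff.mpr (hne w))]
  · intro z
    show |Real.log ‖χ z‖| ≤ _
    rw [abs_le]
    constructor
    · have h1 := hle z⁻¹
      have h2 : χ z⁻¹ = (χ z)⁻¹ := by
        have := hmul z z⁻¹
        rw [mul_inv_cancel, hone] at this
        exact eq_inv_of_mul_eq_one_right this.symm
      rw [h2, norm_inv, Real.log_inv] at h1
      have h3 : Real.log ‖ρ ((z⁻¹ : Subgroup.centralizer {g}) : G)‖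
          ≤ max (Real.log ‖ρ (z : G)‖) (Real.log ‖ρ (z : G)⁻¹‖) := by
        rw [Subgroup.coe_inv]; exact le_max_right _ _
      linarith
    · exact (hle z).trans (le_max_left _ _)
  · show Real.log ‖χ _‖ ≠ 0
    intro h0
    have hp : 0 < ‖χ (selfC g)‖ := norm_pos_iff.mpr (hne _)
    have := Real.eq_one_of_pos_of_log_eq_zero hp h0
    exact hg this

/-- linear version, hypothesis on `g` only: an eigenvalue of modulus `≠ 1` whose eigenspace is a
line -/
theorem hs_zero_of_simple_eigen (e : Fin q → Fin q → G → ℂ) (he : IsL1Idempotent e) (g : G)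
    {𝕜 V : Type*} [NontriviallyNormedField 𝕜] [NormedAddCommGroup V] [NormedSpace 𝕜 V]
    (ρ : G →* (V →L[𝕜] V)) (v : V) (hv : v ≠ 0) (lam : 𝕜) (hlam : ρ g v = lam • v)
    (hline : ∀ u : V, ρ g u = lam • u → ∃ c : 𝕜, u = c • v) (hg : ‖lam‖ ≠ 1) :
    hsCoeff e (ConjClasses.mk g) = 0 := by
  have hex : ∀ z : Subgroup.centralizer {g}, ∃ c : 𝕜, ρ z v = c • v := by
    intro z
    apply hline
    have hcomm : g * (z : G) = (z : G) * g :=
      (Subgroup.mem_centralizer_iff.mp z.2 g (Set.mem_singleton g))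
    have h1 : ρ g (ρ z v) = ρ (g * (z : G)) v := by
      rw [map_mul]; rfl
    rw [h1, hcomm, map_mul]
    show ρ z (ρ g v) = _
    rw [hlam, map_smul]
  choose χ hχ using hex
  refine hs_zero_of_eigen e he g ρ v hv χ hχ ?_
  have h2 : χ (selfC g) = lam := by
    have h3 := hχ (selfC g)
    have h4 : ρ ((selfC g : Subgroup.centralizer {g}) : G) v = lam • v := hlam
    rw [h4] at h3
    have h5 : (lam - χ (selfC g)) • v = 0 := by rw [sub_smul, h3, sub_self]
    rcases smul_eq_zero.mp h5 with h6 | h6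
    · exact (sub_eq_zero.mp h6).symm
    · exact absurd h6 hv
  rw [h2]; exact hg

end Vale.Agent.Lib.P184c
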