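import Vale.Agent.Lib.P184c.Amen

/-!
# P184c: cyclic centralisers

If the centraliser of `g` is cyclic and `g` is undistorted for a subadditive function, then the
`ℓ¹` trace vanishes at `[g]` (no amenability theory needed).
-/

namespace Vale.Agent.Lib.P184c

open Vale.Agent.Lib.P184

universe u

variable {G : Type u} [Group G] {q : ℕ}

lemma subadd_pow (l : G → ℝ) (hl : ∀ x y, l (x * y) ≤ l x + l y) (w : G) (n : ℕ) :
    l (w ^ (n + 1)) ≤ (n + 1 : ℝ) * l w := by
  induction n with
  | zero => simp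
  | succ n ih =>
    have := hl (w ^ (n + 1)) w
    rw [← pow_succ] at this
    push_cast
    linarith

/-- An element with `k c ≤ l (g ^ k)` for all `k`, `c > 0`, has no nontrivial power equal to `1`. -/
lemma pow_ne_one_of_linear (l : G → ℝ) (g : G) (c : ℝ) (hc : 0 < c)
    (hg : ∀ k : ℕ, k * c ≤ l (g ^ k)) (a : ℕ) (ha : 0 < a) : g ^ a ≠ 1 := by
  intro h1
  obtain ⟨k, hk⟩ := exists_nat_gt (l 1 / c)
  have h2 := hg (a * k)
  rw [pow_mul, h1, one_pow] at h2
  rw [div_lt_iff₀ hc] at hk
  have h3 : (k : ℝ) ≤ ((a * k : ℕ) : ℝ) := by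
    exact_mod_cast Nat.le_mul_of_pos_left k ha
  have h4 : (k : ℝ) * c ≤ ((a * k : ℕ) : ℝ) * c := mul_le_mul_of_nonneg_right h3 hc.le
  linarith

theorem hs_zero_of_cyclic (e : Fin q → Fin q → G → ℂ) (he : IsL1Idempotent e) (g h : G)
    (hcyc : ∀ z ∈ Subgroup.centralizer {g}, ∃ m : ℤ, z = h ^ m)
    (l : G → ℝ) (hl : ∀ x y, l (x * y) ≤ l x + l y)
    (c : ℝ) (hc : 0 < c) (hg : ∀ k : ℕ, k * c ≤ l (g ^ k)) :
    hsCoeff e (ConjClasses.mk g) = 0 := by
  have hgmem : g ∈ Subgroup.centralizer {g} := Subgroup.mem_centralizer_iff.mpr (by simp)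
  obtain ⟨j, hj⟩ := hcyc g hgmem
  -- `h` has infinite order
  have hinj : ∀ a b : ℤ, h ^ a = h ^ b → a = b := by
    intro a b hab
    by_contra hne
    have h1 : h ^ (a - b) = 1 := by rw [zpow_sub, hab, mul_inv_cancel]
    have h2 : g ^ (a - b).natAbs = 1 := by
      have h3 : g ^ ((a - b).natAbs : ℤ) = 1 := by
        rw [hj, ← zpow_mul, mul_comm, zpow_mul]
        rcases Int.natAbs_eq (a - b) with h4 | h4
        · rw [← h4, h1, one_zpow]
        · have h5 : ((a - b).natAbs : ℤ) = -(a - b) := by omega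
          rw [h5, zpow_neg, h1, inv_one, one_zpow]
      exact_mod_cast h3
    exact pow_ne_one_of_linear l g c hc hg _ (Int.natAbs_pos.mpr (sub_ne_zero.mpr hne)) h2
  have hj0 : j ≠ 0 := by
    intro h0
    have : g ^ 1 = 1 := by rw [pow_one, hj, h0, zpow_zero]
    exact pow_ne_one_of_linear l g c hc hg 1 one_pos this
  choose! m hm using hcyc
  have hmg : m g = j := hinj _ _ ((hm g hgmem).symm.trans hj)
  set φ : Subgroup.centralizer {g} → ℝ := fun z => (m (z : G) : ℝ) * (c / j) with hφ
  have hjR : (j : ℝ) ≠ 0 := by exact_mod_cast hj0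
  refine hs_zero_of_length e he g (fun x => max (l x) (l x⁻¹)) ?_ φ ?_ ?_ ?_
  · intro x y
    refine max_le ?_ ?_
    · exact (hl x y).trans (add_le_add (le_max_left _ _) (le_max_left _ _))
    · rw [mul_inv_rev]
      have := hl y⁻¹ x⁻¹
      have h5 := le_max_right (l x) (l x⁻¹)
      have h6 := le_max_right (l y) (l y⁻¹)
      linarith
  · intro z w
    have h1 : m ((z * w : Subgroup.centralizer {g}) : G) = m (z : G) + m (w : G) := by
      apply hinj
      rw [← hm _ (z * w).2, zpow_add, ← hm _ z.2, ← hm _ w.2]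
      rfl
    simp only [hφ, h1]
    push_cast
    ring
  · intro z
    -- `w ^ J = g ^ M` for `w = z` or `w = z⁻¹`
    set M : ℕ := (m (z : G)).natAbs with hM
    set J : ℕ := j.natAbs with hJ
    have hJpos : 0 < J := Int.natAbs_pos.mpr hj0
    have habs : |φ z| = (M : ℝ) * c / J := by
      simp only [hφ]
      rw [abs_mul, abs_div, abs_of_pos hc, hM, hJ, Nat.cast_natAbs, Nat.cast_natAbs]
      push_cast
      ring
    have key : ∀ w : G, w ^ J = g ^ M → (M : ℝ) * c / J ≤ l w := by
      intro w hw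
      have h1 := hg M
      rw [← hw] at h1
      obtain ⟨J', hJ'⟩ : ∃ J', J = J' + 1 := ⟨J - 1, by omega⟩
      have h2 := subadd_pow l hl w J'
      rw [← hJ'] at h2
      have h3 : ((J' : ℝ) + 1) = (J : ℝ) := by rw [hJ']; push_cast; ring
      rw [h3] at h2
      have hJR : (0 : ℝ) < J := by exact_mod_cast hJpos
      rw [div_le_iff₀ hJR]
      linarith
    have hz : (z : G) = h ^ m (z : G) := hm _ z.2
    have hcase : (z : G) ^ J = g ^ M ∨ ((z : G)⁻¹) ^ J = g ^ M := by
      have e1 : (z : G) ^ J = h ^ (m (z : G) * J) := by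
        conv_lhs => rw [hz]
        rw [zpow_mul, zpow_natCast]
      have e2 : g ^ M = h ^ (j * M) := by
        conv_lhs => rw [hj]
        rw [zpow_mul, zpow_natCast]
      have e3 : ((z : G)⁻¹) ^ J = h ^ (-(m (z : G) * J)) := by
        rw [inv_pow, e1, zpow_neg]
      have hsign : m (z : G) * J = j * M ∨ -(m (z : G) * J) = j * M := by
        rcases Int.natAbs_eq (m (z : G)) with h4 | h4 <;> rcases Int.natAbs_eq j with h5 | h5
        · left; rw [hM, hJ]; rw [← h4, ← h5]; ring
        · right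
          have a1 : (J : ℤ) = -j := by rw [hJ]; omega
          have a2 : (M : ℤ) = m (z : G) := by rw [hM]; omega
          rw [a1, a2]; ring
        · right
          have a1 : (J : ℤ) = j := by rw [hJ]; omega
          have a2 : (M : ℤ) = -m (z : G) := by rw [hM]; omega
          rw [a1, a2]; ring
        · left
          have a1 : (J : ℤ) = -j := by rw [hJ]; omega
          have a2 : (M : ℤ) = -m (z : G) := by rw [hM]; omega
          rw [a1, a2]; ring
      rcases hsign with h6 | h6
      · left; rw [e1, e2, h6]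
      · right; rw [e3, e2, h6]
    rw [habs]
    rcases hcase with h7 | h7
    · exact (key _ h7).trans (le_max_left _ _)
    · exact (key _ h7).trans (le_max_right _ _)
  · simp only [hφ, hmg]
    rw [mul_div_cancel₀ _ hjR]
    exact hc.ne'

end Vale.Agent.Lib.P184c
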