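import Vale.Agent.Lib.P184c.CP

/-!
P184c: from a length function and a dominated homomorphism on the centraliser to a cocycle.
`θ x = inf over z in Z(g) of (φ z + ℓ (x z⁻¹))`.
-/

namespace Vale.Agent.Lib.P184c

variable {G : Type*} [Group G]

/-- U7a.  `θ x = ⨅ z : Z, (φ z + ℓ (x * z⁻¹))`.  Bounded below by `- ℓ x⁻¹`, because
`ℓ z⁻¹ ≤ ℓ x⁻¹ + ℓ (x z⁻¹)` and `|φ z| = |φ z⁻¹| ≤ ℓ z⁻¹`.  Right equivariance: substitute
`z ↦ z z'`.  Left Lipschitz: `ℓ (h x z⁻¹) ≤ ℓ h + ℓ (x z⁻¹)`, and the same with `h⁻¹`. -/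
theorem exists_theta (Z : Subgroup G) (l : G → ℝ) (hl : ∀ x y, l (x * y) ≤ l x + l y)
    (φ : Z → ℝ) (hφ : ∀ z w, φ (z * w) = φ z + φ w) (hφl : ∀ z : Z, |φ z| ≤ l z) :
    ∃ θ : G → ℝ, (∀ (x : G) (z : Z), θ (x * z) = θ x + φ z) ∧
      ∀ h x, |θ (h * x) - θ x| ≤ max (l h) (l h⁻¹) := by
  classical
  have hφ1 : φ 1 = 0 := by
    have := hφ 1 1
    rw [mul_one] at this
    linarith
  have hφinv : ∀ z, φ z⁻¹ = - φ z := by
    intro z
    have := hφ z z⁻¹
    rw [mul_inv_cancel, hφ1] at this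
    linarith
  let F : G → Z → ℝ := fun x z => φ z + l (x * (z : G)⁻¹)
  have hlow : ∀ x z, - l x⁻¹ ≤ F x z := by
    intro x z
    have h1 : l ((z : G)⁻¹) ≤ l x⁻¹ + l (x * (z : G)⁻¹) := by
      have := hl x⁻¹ (x * (z : G)⁻¹)
      rwa [inv_mul_cancel_left] at this
    have h2 : |φ z⁻¹| ≤ l ((z⁻¹ : Z) : G) := hφl z⁻¹
    rw [hφinv, abs_neg] at h2
    have h3 := neg_abs_le (φ z)
    have h4 : ((z⁻¹ : Z) : G) = (z : G)⁻¹ := rfl
    rw [h4] at h2
    show - l x⁻¹ ≤ φ z + l (x * (z : G)⁻¹)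
    linarith
  have hbdd : ∀ x, BddBelow (Set.range (F x)) := fun x =>
    ⟨- l x⁻¹, by
      rintro _ ⟨z, rfl⟩
      exact hlow x z⟩
  refine ⟨fun x => ⨅ z, F x z, ?_, ?_⟩
  · intro x z'
    show (⨅ z, F (x * z') z) = (⨅ z, F x z) + φ z'
    rw [ciInf_add (hbdd x), ← (Equiv.mulRight z').iInf_comp]
    congr 1
    funext w
    show φ (w * z') + l (x * z' * ((w * z' : Z) : G)⁻¹) = φ w + l (x * (w : G)⁻¹) + φ z'
    have h5 : x * (z' : G) * ((w * z' : Z) : G)⁻¹ = x * (w : G)⁻¹ := by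
      have h6 : ((w * z' : Z) : G) = (w : G) * (z' : G) := rfl
      rw [h6]
      group
    rw [hφ, h5]
    ring
  · have hle : ∀ h x, (⨅ z, F (h * x) z) ≤ (⨅ z, F x z) + l h := by
      intro h x
      rw [ciInf_add (hbdd x)]
      apply le_ciInf
      intro z
      refine (ciInf_le (hbdd (h * x)) z).trans ?_
      show φ z + l (h * x * (z : G)⁻¹) ≤ φ z + l (x * (z : G)⁻¹) + l h
      have := hl h (x * (z : G)⁻¹)
      rw [← mul_assoc] at this
      linarith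
    intro h x
    have h1 := hle h x
    have h2 := hle h⁻¹ (h * x)
    rw [inv_mul_cancel_left] at h2
    show |(⨅ z, F (h * x) z) - (⨅ z, F x z)| ≤ max (l h) (l h⁻¹)
    rw [abs_le]
    constructor
    · have := le_max_right (l h) (l h⁻¹)
      linarith
    · have := le_max_left (l h) (l h⁻¹)
      linarith

/-- U7b.  Choose `σ c` with `σ c * g * (σ c)⁻¹ = c` and put `Θ h c = θ (h * σ c) - θ (σ c)`.
If `y * g * y⁻¹ = c` then `y = σ c * z` with `z` in the centraliser, so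
`θ (h * y) - θ y = Θ h c`; use this with `y = b * σ c` (class `act b c`) for the cocycle identity and
note `c * σ c = σ c * g` for the diagonal. -/
theorem exists_cocycle (g : G) (θ : G → ℝ) (φ : Subgroup.centralizer {g} → ℝ)
    (hθ : ∀ (x : G) (z : Subgroup.centralizer {g}), θ (x * z) = θ x + φ z)
    (M : G → ℝ) (hM : ∀ h x, |θ (h * x) - θ x| ≤ M h) :
    ∃ Θ : G → Cl g → ℝ, (∀ a b c, Θ (a * b) c = Θ a (act b c) + Θ b c) ∧
      (∀ h c, |Θ h c| ≤ M h) ∧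
      ∀ c : Cl g, Θ c.1 c = φ ⟨g, Subgroup.mem_centralizer_iff.mpr (by simp)⟩ := by
  classical
  have hex : ∀ c : Cl g, ∃ s : G, s * g * s⁻¹ = c.1 := fun c =>
    isConj_iff.mp (ConjClasses.mk_eq_mk_iff_isConj.mp c.2).symm
  choose σ hσ using hex
  have key : ∀ (c : Cl g) (y : G), y * g * y⁻¹ = c.1 → ∀ h,
      θ (h * y) - θ y = θ (h * σ c) - θ (σ c) := by
    intro c y hy h
    have hz : (σ c)⁻¹ * y ∈ Subgroup.centralizer {g} := by
      rw [Subgroup.mem_centralizer_iff]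
      intro k hk
      rw [Set.mem_singleton_iff] at hk
      subst hk
      have h1 : y * k * y⁻¹ = σ c * k * (σ c)⁻¹ := by rw [hy, hσ c]
      have h2 : y * k = σ c * k * (σ c)⁻¹ * y := by
        rw [← h1]
        group
      calc k * ((σ c)⁻¹ * y) = (σ c)⁻¹ * (σ c * k * (σ c)⁻¹ * y) := by group
        _ = (σ c)⁻¹ * (y * k) := by rw [h2]
        _ = (σ c)⁻¹ * y * k := by group
    have e1 : y = σ c * (((⟨(σ c)⁻¹ * y, hz⟩ : Subgroup.centralizer {g}) : G)) := by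
      show y = σ c * ((σ c)⁻¹ * y)
      group
    have h3 := hθ (h * σ c) ⟨(σ c)⁻¹ * y, hz⟩
    have h4 := hθ (σ c) ⟨(σ c)⁻¹ * y, hz⟩
    rw [mul_assoc, ← e1] at h3
    rw [← e1] at h4
    rw [h3, h4]
    ring
  refine ⟨fun h c => θ (h * σ c) - θ (σ c), ?_, ?_, ?_⟩
  · intro a b c
    have hy : (b * σ c) * g * (b * σ c)⁻¹ = (act b c).1 := by
      rw [act_val, ← hσ c]
      group
    have h1 := key (act b c) (b * σ c) hy a
    show θ (a * b * σ c) - θ (σ c) =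
      (θ (a * σ (act b c)) - θ (σ (act b c))) + (θ (b * σ c) - θ (σ c))
    rw [← h1, mul_assoc]
    ring
  · intro h c
    exact hM h (σ c)
  · intro c
    show θ (c.1 * σ c) - θ (σ c) = _
    have h1 : c.1 * σ c = σ c * g := by
      rw [← hσ c]
      group
    have h2 := hθ (σ c) ⟨g, Subgroup.mem_centralizer_iff.mpr (by simp)⟩
    rw [h1]
    simp only at h2
    rw [h2]
    ring

end Vale.Agent.Lib.P184c
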