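import Vale.Agent.Lib.P184c.Main
import Vale.Agent.Lib.P184c.Length

namespace Vale.Agent.Lib.P184c

open Vale.Agent.Lib.P184

variable {G : Type*} [Group G] {q : ℕ}

/-- Main theorem: vanishing at classes that are undistorted along a central direction. -/
theorem hs_zero_of_length (e : Fin q → Fin q → G → ℂ) (he : IsL1Idempotent e) (g : G)
    (l : G → ℝ) (hl : ∀ x y, l (x * y) ≤ l x + l y)
    (φ : Subgroup.centralizer {g} → ℝ) (hφ : ∀ z w, φ (z * w) = φ z + φ w)
    (hφl : ∀ z : Subgroup.centralizer {g}, |φ z| ≤ l z)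
    (hg : φ ⟨g, Subgroup.mem_centralizer_iff.mpr (by simp)⟩ ≠ 0) :
    hsCoeff e (ConjClasses.mk g) = 0 := by
  obtain ⟨θ, h1, h2⟩ := exists_theta (Subgroup.centralizer {g}) l hl φ hφ hφl
  obtain ⟨Θ, hc, hb, hd⟩ := exists_cocycle g θ φ h1 (fun h => max (l h) (l h⁻¹)) h2
  exact hs_zero_of_cocycle e he g Θ hc _ hb _ hg hd

end Vale.Agent.Lib.P184c
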