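import Vale.Agent.Lib.P184c.Mat

/-!
P184c: the image of a matrix over l1(G) in matrices over `CP g`, twisted by a multiplier `w`.
-/

namespace Vale.Agent.Lib.P184c

open Vale.Agent.Lib.P184

variable {G : Type*} [Group G] {g : G} {q : ℕ}

/-- `h, c ↦ w h c * a h` as an element of the crossed product -/
def emb (a : G → ℂ) (ha : Summable fun h => ‖a h‖) (w : G → Cl g → ℂ) (hw : ∀ h c, ‖w h c‖ ≤ 1) :
    CP g :=
  ⟨fun h c => w h c * a h, ⟨fun h => ‖a h‖, ha, fun h c => by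
    rw [norm_mul]
    calc ‖w h c‖ * ‖a h‖ ≤ 1 * ‖a h‖ := mul_le_mul_of_nonneg_right (hw h c) (norm_nonneg _)
      _ = ‖a h‖ := one_mul _⟩⟩

/-- the twisted matrix -/
def Mw (e : Fin q → Fin q → G → ℂ) (he : IsL1Idempotent e) (w : G → Cl g → ℂ)
    (hw : ∀ h c, ‖w h c‖ ≤ 1) : Matrix (Fin q) (Fin q) (CP g) :=
  fun i j => emb (e i j) (he.mem i j) w hw

lemma Mw_f (e : Fin q → Fin q → G → ℂ) (he : IsL1Idempotent e) (w : G → Cl g → ℂ)
    (hw : ∀ h c, ‖w h c‖ ≤ 1) (i j : Fin q) (h : G) (c : Cl g) :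
    (Mw e he w hw i j).f h c = w h c * e i j h := rfl

/-- U5a.  Entry `(i, j)` at `(h, c)`: `∑ l ∑' k, w (h k⁻¹) (k • c) e i l (h k⁻¹) * (w k c e l j k)
= w h c * ∑ l ∑' k, e i l (h k⁻¹) e l j k = w h c * ∑ l conv (e i l) (e l j) h` (substitution
`k = x⁻¹ h` in `conv`, e.g. via an `Equiv`) `= w h c * e i j h`. -/
lemma Mw_idem (e : Fin q → Fin q → G → ℂ) (he : IsL1Idempotent e) (w : G → Cl g → ℂ)
    (hw : ∀ h c, ‖w h c‖ ≤ 1)
    (hcoc : ∀ h k c, w (h * k⁻¹) (act k c) * w k c = w h c) :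
    Mw e he w hw * Mw e he w hw = Mw e he w hw := by
  ext i j h c
  rw [Matrix.mul_apply, CP.sum_f, Mw_f, ← he.idem i j h, Finset.mul_sum]
  refine Finset.sum_congr rfl fun l _ => ?_
  rw [CP.mul_f]
  have h1 : ∀ k : G, (Mw e he w hw i l).f (h * k⁻¹) (act k c) * (Mw e he w hw l j).f k c =
      w h c * (e i l (h * k⁻¹) * e l j k) := by
    intro k
    rw [Mw_f, Mw_f, ← hcoc h k c]
    ring
  simp_rw [h1]
  rw [tsum_mul_left]
  congr 1
  unfold conv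
  rw [← Equiv.tsum_eq ((Equiv.inv G).trans (Equiv.mulLeft h))
    (fun x => e i l x * e l j (x⁻¹ * h))]
  refine tsum_congr fun k => ?_
  simp

/-- U5b -/
lemma trq_Mw (e : Fin q → Fin q → G → ℂ) (he : IsL1Idempotent e) (w : G → Cl g → ℂ)
    (hw : ∀ h c, ‖w h c‖ ≤ 1) (z : ℂ) (hz : ∀ c : Cl g, w c.1 c = z) :
    trq (Mw e he w hw) = z * hsCoeff e (ConjClasses.mk g) := by
  have hsum : ∀ i : Fin q, Summable fun c : Cl g => e i i c.1 := fun i =>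
    (he.mem i i).of_norm.comp_injective Subtype.val_injective
  rw [trq_apply]
  unfold hsCoeff tr
  rw [Summable.tsum_finsetSum (fun i _ => hsum i), Finset.mul_sum]
  refine Finset.sum_congr rfl fun i _ => ?_
  rw [← tsum_mul_left]
  refine tsum_congr fun c => ?_
  rw [Mw_f, hz c]

/-- U5c -/
lemma NBq_sub (e : Fin q → Fin q → G → ℂ) (he : IsL1Idempotent e) (w w' : G → Cl g → ℂ)
    (hw : ∀ h c, ‖w h c‖ ≤ 1) (hw' : ∀ h c, ‖w' h c‖ ≤ 1) (m : G → ℝ)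
    (hm : ∀ h c, ‖w h c - w' h c‖ ≤ m h)
    (hs : Summable fun h => m h * ∑ i, ∑ j, ‖e i j h‖) :
    NBq (Mw e he w hw - Mw e he w' hw') ((q : ℝ) * ∑' h, m h * ∑ i, ∑ j, ‖e i j h‖) := by
  refine ⟨fun h => m h * ∑ i, ∑ j, ‖e i j h‖, hs, ?_, le_refl _⟩
  intro i j h c
  rw [Matrix.sub_apply, CP.sub_f, Mw_f, Mw_f, ← sub_mul, norm_mul]
  have hm0 : 0 ≤ m h := le_trans (norm_nonneg _) (hm h c)
  have h1 : ‖e i j h‖ ≤ ∑ i, ∑ j, ‖e i j h‖ := by
    calc ‖e i j h‖ ≤ ∑ j, ‖e i j h‖ :=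
          Finset.single_le_sum (f := fun j => ‖e i j h‖) (fun _ _ => norm_nonneg _)
            (Finset.mem_univ j)
      _ ≤ ∑ i, ∑ j, ‖e i j h‖ :=
          Finset.single_le_sum (f := fun i => ∑ j, ‖e i j h‖)
            (fun _ _ => Finset.sum_nonneg fun _ _ => norm_nonneg _) (Finset.mem_univ i)
  exact mul_le_mul (hm h c) h1 (norm_nonneg _) hm0

end Vale.Agent.Lib.P184c
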