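import Vale.Agent.Lib.P184c.Alg
import Vale.Agent.Lib.P184c.Twist

/-!
P184c: vanishing of the Hattori-Stallings coefficient at a class carrying a real cocycle.
-/

namespace Vale.Agent.Lib.P184c

open Vale.Agent.Lib.P184
open Filter Topology

variable {G : Type*} [Group G] {q : ℕ}

/-- U6a.  Dominated convergence (`tendsto_tsum_of_dominated_convergence`, bound `2 * E h`) as
`t → 0`, then take `t > 0` small, also with `t * |lam| < 1` say. -/
lemma exists_small_t (E M : G → ℝ) (hE : Summable E) (hE0 : ∀ h, 0 ≤ E h) (hM0 : ∀ h, 0 ≤ M h)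
    (K : ℝ) (lam : ℝ) :
    ∃ t : ℝ, 0 < t ∧ t * |lam| < 1 ∧ (Summable fun h => min 2 (t * M h) * E h) ∧
      K * ∑' h, min 2 (t * M h) * E h < 1 := by
  have hb : ∀ t : ℝ, 0 ≤ t → ∀ h, ‖min 2 (t * M h) * E h‖ ≤ 2 * E h := by
    intro t ht h
    have h1 : 0 ≤ min 2 (t * M h) := le_min (by norm_num) (mul_nonneg ht (hM0 h))
    rw [Real.norm_of_nonneg (mul_nonneg h1 (hE0 h))]
    exact mul_le_mul_of_nonneg_right (min_le_left _ _) (hE0 h)
  have hsum : ∀ t : ℝ, 0 ≤ t → Summable fun h => min 2 (t * M h) * E h := fun t ht =>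
    Summable.of_norm_bounded (hE.mul_left 2) (hb t ht)
  have hlim : Tendsto (fun t : ℝ => ∑' h, min 2 (t * M h) * E h) (𝓝[>] 0) (𝓝 (∑' _h : G, (0 : ℝ))) := by
    apply tendsto_tsum_of_dominated_convergence (hE.mul_left 2)
    · intro h
      have hc : Continuous fun t : ℝ => min 2 (t * M h) * E h := by fun_prop
      have := (hc.tendsto 0).mono_left (nhdsWithin_le_nhds (s := Set.Ioi 0))
      simpa using this
    · filter_upwards [self_mem_nhdsWithin] with t ht
      exact hb t (le_of_lt ht)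
  rw [tsum_zero] at hlim
  have h2 : Tendsto (fun t : ℝ => K * ∑' h, min 2 (t * M h) * E h) (𝓝[>] 0) (𝓝 0) := by
    simpa using hlim.const_mul K
  have h3 : Tendsto (fun t : ℝ => t * |lam|) (𝓝[>] 0) (𝓝 0) := by
    have hc : Continuous fun t : ℝ => t * |lam| := by fun_prop
    have := (hc.tendsto 0).mono_left (nhdsWithin_le_nhds (s := Set.Ioi 0))
    simpa using this
  have e2 := h2.eventually (gt_mem_nhds (show (0 : ℝ) < 1 by norm_num))
  have e3 := h3.eventually (gt_mem_nhds (show (0 : ℝ) < 1 by norm_num))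
  obtain ⟨t, ⟨ht2, ht3⟩, ht0⟩ := ((e2.and e3).and self_mem_nhdsWithin).exists
  exact ⟨t, ht0, ht3, hsum t (le_of_lt ht0), ht2⟩

/-- U6b: `‖exp (i x) - 1‖ ≤ min 2 |x|`. -/
lemma norm_exp_sub_one_le (x : ℝ) : ‖Complex.exp (x * Complex.I) - 1‖ ≤ min 2 |x| := by
  apply le_min
  · calc ‖Complex.exp (x * Complex.I) - 1‖ ≤ ‖Complex.exp (x * Complex.I)‖ + ‖(1 : ℂ)‖ := norm_sub_le _ _
      _ = 2 := by rw [Complex.norm_exp_ofReal_mul_I]; norm_num
  · have := Real.norm_exp_I_mul_ofReal_sub_one_le (x := x)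
    rw [mul_comm] at this
    simpa using this

/-- U6c: `exp (i x) ≠ 1` for `0 < |x| < 1`. -/
lemma exp_ne_one (x : ℝ) (h0 : x ≠ 0) (h1 : |x| < 1) : Complex.exp (x * Complex.I) ≠ 1 := by
  intro h
  rw [Complex.exp_eq_one_iff] at h
  obtain ⟨n, hn⟩ := h
  have h2 : (x : ℂ) = n * (2 * Real.pi) := by
    have hI : Complex.I ≠ 0 := Complex.I_ne_zero
    apply mul_right_cancel₀ hI
    rw [hn]; ring
  have h3 : x = n * (2 * Real.pi) := by exact_mod_cast h2
  have hn0 : n ≠ 0 := by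
    rintro rfl
    apply h0
    simpa using h3
  have h4 : (1 : ℝ) ≤ |(n : ℝ)| := by exact_mod_cast Int.one_le_abs hn0
  have h5 : |x| = |(n : ℝ)| * (2 * Real.pi) := by
    rw [h3, abs_mul, abs_of_pos (by positivity : (0 : ℝ) < 2 * Real.pi)]
  have h6 := Real.pi_gt_three
  nlinarith

/-- U6.  Take `t` from `exists_small_t` (with `E h = ∑ i j ‖e i j h‖`, `K = q`),
`w h c = exp (i t Θ h c)`, `w' = 1`; both `Mw` are idempotent (`Mw_idem`), their difference has
size `< 1` (`NBq_sub`, `norm_exp_sub_one_le`), so by `trace_eq_of_close` (with `trq`, `NBq`,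
`NBq_mul`, `norm_trq_le`, `trq_mul_comm`) the traces agree:
`exp (i t lam) * hsCoeff = 1 * hsCoeff` (`trq_Mw`), and `exp (i t lam) ≠ 1`. -/
theorem hs_zero_of_cocycle (e : Fin q → Fin q → G → ℂ) (he : IsL1Idempotent e) (g : G)
    (Θ : G → Cl g → ℝ) (hcoc : ∀ a b c, Θ (a * b) c = Θ a (act b c) + Θ b c)
    (M : G → ℝ) (hM : ∀ h c, |Θ h c| ≤ M h) (lam : ℝ) (hlam : lam ≠ 0)
    (hdiag : ∀ c : Cl g, Θ c.1 c = lam) :
    hsCoeff e (ConjClasses.mk g) = 0 := by
  have hM0 : ∀ h, 0 ≤ M h := fun h => le_trans (abs_nonneg _) (hM h ⟨g, rfl⟩)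
  have hE : Summable fun h => ∑ i, ∑ j, ‖e i j h‖ :=
    summable_sum fun i _ => summable_sum fun j _ => he.mem i j
  have hE0 : ∀ h, 0 ≤ ∑ i, ∑ j, ‖e i j h‖ := fun h =>
    Finset.sum_nonneg fun i _ => Finset.sum_nonneg fun j _ => norm_nonneg _
  obtain ⟨t, ht0, htl, hts, htK⟩ := exists_small_t _ M hE hE0 hM0 (q : ℝ) lam
  set w : G → Cl g → ℂ := fun h c => Complex.exp (((t * Θ h c : ℝ) : ℂ) * Complex.I) with hw
  set w1 : G → Cl g → ℂ := fun _ _ => 1 with hw1
  have hwn : ∀ h c, ‖w h c‖ ≤ 1 := fun h c => by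
    rw [hw]; exact le_of_eq (Complex.norm_exp_ofReal_mul_I _)
  have hw1n : ∀ h c, ‖w1 h c‖ ≤ 1 := fun h c => by simp [hw1]
  have hwc : ∀ h k c, w (h * k⁻¹) (act k c) * w k c = w h c := by
    intro h k c
    simp only [hw]
    rw [← Complex.exp_add]
    congr 1
    have := hcoc (h * k⁻¹) k c
    rw [inv_mul_cancel_right] at this
    rw [this]
    push_cast
    ring
  have hw1c : ∀ h k c, w1 (h * k⁻¹) (act k c) * w1 k c = w1 h c := by
    intro h k c; simp [hw1]
  have hidem := Mw_idem e he w hwn hwc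
  have hidem1 := Mw_idem e he w1 hw1n hw1c
  have hm : ∀ h c, ‖w h c - w1 h c‖ ≤ min 2 (t * M h) := by
    intro h c
    simp only [hw, hw1]
    refine (norm_exp_sub_one_le _).trans ?_
    apply min_le_min le_rfl
    rw [abs_mul, abs_of_pos ht0]
    exact mul_le_mul_of_nonneg_left (hM h c) ht0.le
  have hNB := NBq_sub e he w w1 hwn hw1n _ hm hts
  have hr0 : 0 ≤ (q : ℝ) * ∑' h, min 2 (t * M h) * ∑ i, ∑ j, ‖e i j h‖ := by
    apply mul_nonneg (Nat.cast_nonneg _)
    apply tsum_nonneg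
    intro h
    exact mul_nonneg (le_min (by norm_num) (mul_nonneg ht0.le (hM0 h))) (hE0 h)
  have key := trace_eq_of_close (trq (g := g) (q := q)) trq_mul_comm NBq NBq_mul norm_trq_le
    (Mw e he w1 hw1n) (Mw e he w hwn) hidem1 hidem _ hr0 htK hNB
  rw [trq_Mw e he w hwn (Complex.exp (((t * lam : ℝ) : ℂ) * Complex.I))
      (fun c => by simp only [hw]; rw [hdiag c]),
    trq_Mw e he w1 hw1n 1 (fun c => rfl)] at key
  have hne : Complex.exp (((t * lam : ℝ) : ℂ) * Complex.I) ≠ 1 := by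
    apply exp_ne_one
    · exact mul_ne_zero ht0.ne' hlam
    · rw [abs_mul, abs_of_pos ht0]; exact htl
  have h2 : (Complex.exp (((t * lam : ℝ) : ℂ) * Complex.I) - 1) * hsCoeff e (ConjClasses.mk g) = 0 := by
    rw [sub_mul, key, sub_self]
  rcases mul_eq_zero.mp h2 with h3 | h3
  · exact absurd (sub_eq_zero.mp h3) hne
  · exact h3

end Vale.Agent.Lib.P184c
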