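import Vale.Agent.Lib.P184c.Tr

/-!
P184c: matrices over the crossed product.
-/

namespace Vale.Agent.Lib.P184c

variable {G : Type*} [Group G] {g : G} {q : ℕ}

/-- trace of a matrix over `CP g`, as an additive map -/
noncomputable def trq : Matrix (Fin q) (Fin q) (CP g) →+ ℂ where
  toFun M := ∑ i, tr (M i i)
  map_zero' := by
    have h0 : tr (0 : CP g) = 0 := by simp [tr]
    simp [h0]
  map_add' M N := by
    simp only [Matrix.add_apply, tr_add, Finset.sum_add_distrib]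

lemma trq_apply (M : Matrix (Fin q) (Fin q) (CP g)) : trq M = ∑ i, tr (M i i) := rfl

/-- size bound for matrices: all entries are dominated by one summable `a` with `q * ∑' a ≤ r` -/
def NBq (M : Matrix (Fin q) (Fin q) (CP g)) (r : ℝ) : Prop :=
  ∃ a : G → ℝ, Summable a ∧ (∀ i j h c, ‖(M i j).f h c‖ ≤ a h) ∧ (q : ℝ) * ∑' h, a h ≤ r

/-- `tr` as an additive map -/
noncomputable def trHom : CP g →+ ℂ where
  toFun := tr
  map_zero' := by simp [tr]
  map_add' := tr_add

lemma tr_sum {ι : Type*} (s : Finset ι) (F : ι → CP g) : tr (∑ i ∈ s, F i) = ∑ i ∈ s, tr (F i) :=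
  map_sum (trHom (g := g)) F s

/-- U4a.  (`tr` of a finite sum, `Matrix.mul_apply`, `tr_mul_comm`, `Finset.sum_comm`.) -/
lemma trq_mul_comm (M N : Matrix (Fin q) (Fin q) (CP g)) : trq (M * N) = trq (N * M) := by
  simp only [trq_apply, Matrix.mul_apply, tr_sum]
  rw [Finset.sum_comm]
  exact Finset.sum_congr rfl (fun i _ => Finset.sum_congr rfl (fun j _ => tr_mul_comm _ _))

/-- U4b -/
lemma norm_trq_le (M : Matrix (Fin q) (Fin q) (CP g)) (r : ℝ) (h : NBq M r) : ‖trq M‖ ≤ r := by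
  obtain ⟨a, ha, hdom, hr⟩ := h
  rw [trq_apply]
  refine (norm_sum_le _ _).trans (le_trans ?_ hr)
  calc ∑ i : Fin q, ‖tr (M i i)‖ ≤ ∑ _i : Fin q, ∑' h, a h :=
        Finset.sum_le_sum (fun i _ => norm_tr_le (M i i) a ⟨ha, fun h c => hdom i i h c⟩)
    _ = (q : ℝ) * ∑' h, a h := by simp

/-- U4c.  If `a`, `b` dominate `M`, `N` then `q • cvR a b` dominates `M * N`
(`CP.sum_f`, `dom_mulF`), and `q * ∑' (q • cvR a b) = (q ∑' a) (q ∑' b)` by `hasSum_cvR`.
(For `q = 0` everything is trivial; `a`, `b` are nonnegative as soon as `q > 0`; replace them by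
`fun h => max (a h) 0` or treat `q = 0` apart.) -/
lemma NBq_mul (M N : Matrix (Fin q) (Fin q) (CP g)) (r s : ℝ) (hM : NBq M r) (hN : NBq N s) :
    NBq (M * N) (r * s) := by
  obtain ⟨a, ha, hMa, hr⟩ := hM
  obtain ⟨b, hb, hNb, hs⟩ := hN
  rcases Nat.eq_zero_or_pos q with hq | hq
  · subst hq
    refine ⟨fun _ => 0, summable_zero, fun i => i.elim0, ?_⟩
    simp only [Nat.cast_zero, zero_mul] at hr hs ⊢
    exact mul_nonneg hr hs
  · have i0 : Fin q := ⟨0, hq⟩
    have ha0 : ∀ x, 0 ≤ a x := fun x => (norm_nonneg _).trans (hMa i0 i0 x ⟨g, rfl⟩)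
    have hb0 : ∀ x, 0 ≤ b x := fun x => (norm_nonneg _).trans (hNb i0 i0 x ⟨g, rfl⟩)
    have hcv := hasSum_cvR a b ha hb ha0 hb0
    refine ⟨fun h => (q : ℝ) * cvR a b h, hcv.summable.mul_left _, ?_, ?_⟩
    · intro i j h c
      rw [Matrix.mul_apply, CP.sum_f]
      refine (norm_sum_le _ _).trans ?_
      calc ∑ l : Fin q, ‖(M i l * N l j).f h c‖ ≤ ∑ _l : Fin q, cvR a b h := by
            refine Finset.sum_le_sum (fun l _ => ?_)
            exact (dom_mulF (F := (M i l).f) (F' := (N l j).f) ⟨ha, fun h c => hMa i l h c⟩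
              ⟨hb, fun h c => hNb l j h c⟩).2 h c
        _ = (q : ℝ) * cvR a b h := by simp
    · rw [tsum_mul_left, hcv.tsum_eq]
      calc (q : ℝ) * ((q : ℝ) * ((∑' x, a x) * ∑' x, b x))
          = ((q : ℝ) * ∑' x, a x) * ((q : ℝ) * ∑' x, b x) := by ring
        _ ≤ r * s := by
          refine mul_le_mul hr hs ?_ ?_
          · exact mul_nonneg (Nat.cast_nonneg _) (tsum_nonneg hb0)
          · exact (mul_nonneg (Nat.cast_nonneg _) (tsum_nonneg ha0)).trans hr

end Vale.Agent.Lib.P184c
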