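import Vale.Agent.Lib.P184c.CP

/-!
P184c: the trace `tr F = ∑' c, F c c` on the crossed product.
-/

namespace Vale.Agent.Lib.P184c

variable {G : Type*} [Group G] {g : G}

/-- the trace -/
noncomputable def tr (F : CP g) : ℂ := ∑' c : Cl g, F.f c.1 c

lemma summable_dom_cl {a : G → ℝ} (ha : Summable a) : Summable fun c : Cl g => a c.1 :=
  ha.comp_injective Subtype.val_injective

/-- U3a -/
lemma summable_tr_term (F : CP g) : Summable fun c : Cl g => F.f c.1 c := by
  obtain ⟨a, ha⟩ := F.dom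
  exact Summable.of_norm_bounded (summable_dom_cl ha.1) (fun c => ha.2 c.1 c)

/-- U3a -/
lemma norm_tr_le (F : CP g) (a : G → ℝ) (ha : Dom F.f a) : ‖tr F‖ ≤ ∑' h, a h := by
  have h1 : ‖tr F‖ ≤ ∑' c : Cl g, a c.1 :=
    tsum_of_norm_bounded (summable_dom_cl ha.1).hasSum (fun c => ha.2 c.1 c)
  refine h1.trans ?_
  exact tsum_comp_le_tsum_of_inj ha.1 (fun x => ha.nonneg x) Subtype.val_injective

/-- U3a -/
lemma tr_add (F F' : CP g) : tr (F + F') = tr F + tr F' := by
  unfold tr
  simp only [CP.add_f]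
  exact (summable_tr_term F).tsum_add (summable_tr_term F')


/-- the involution `(c, k) ↦ (k • c, c k⁻¹)` of `Cl g × G` -/
def flipCK (g : G) : Cl g × G ≃ Cl g × G where
  toFun p := (act p.2 p.1, p.1.1 * p.2⁻¹)
  invFun p := (act p.2 p.1, p.1.1 * p.2⁻¹)
  left_inv p := by
    apply Prod.ext
    · apply Subtype.ext
      simp only [act_val]
      group
    · simp only [act_val]
      group
  right_inv p := by
    apply Prod.ext
    · apply Subtype.ext
      simp only [act_val]
      group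
    · simp only [act_val]
      group

lemma summable_trmul_term (F F' : CP g) :
    Summable fun p : Cl g × G => F.f (p.1.1 * p.2⁻¹) (act p.2 p.1) * F'.f p.2 p.1 := by
  obtain ⟨a, ha⟩ := F.dom
  obtain ⟨b, hb⟩ := F'.dom
  have h1 : Summable (fun p : G × G => a p.1 * b p.2) :=
    ha.1.mul_of_nonneg hb.1 (fun x => ha.nonneg x) (fun x => hb.nonneg x)
  have hinj : Function.Injective (fun p : Cl g × G => ((p.1.1 * p.2⁻¹, p.2) : G × G)) := by
    intro p q hpq
    simp only [Prod.mk.injEq] at hpq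
    obtain ⟨h1, h2⟩ := hpq
    rw [h2] at h1
    apply Prod.ext
    · exact Subtype.ext (mul_right_cancel h1)
    · exact h2
  refine Summable.of_norm_bounded (h1.comp_injective hinj) ?_
  intro p
  simp only [norm_mul, Function.comp]
  exact mul_le_mul (ha.2 _ _) (hb.2 _ _) (norm_nonneg _) (ha.nonneg _)

/-- U3b.  `tr (F * F') = ∑ over (c, k)` of `F (c k⁻¹) (k • c) * F' k c`.  The map
`(c, k) ↦ (k • c, c k⁻¹)` is a bijection of `Cl g × G` (its own inverse up to the same formula):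
with `c' = k c k⁻¹`, `k' = c k⁻¹` one has `c' k'⁻¹ = k` and `k' • c' = c`.  Summability of the
double family: `‖..‖ ≤ a (c k⁻¹) * b k` and `(c, k) ↦ (c k⁻¹, k)` is injective into `G × G`. -/
lemma tr_mul_comm (F F' : CP g) : tr (F * F') = tr (F' * F) := by
  have hS := summable_trmul_term F F'
  have hS' := summable_trmul_term F' F
  have e : ∀ p : Cl g × G,
      F'.f (((flipCK g) p).1.1 * ((flipCK g) p).2⁻¹) (act ((flipCK g) p).2 ((flipCK g) p).1)
        * F.f ((flipCK g) p).2 ((flipCK g) p).1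
      = F.f (p.1.1 * p.2⁻¹) (act p.2 p.1) * F'.f p.2 p.1 := by
    intro p
    have e1 : ((flipCK g) p).1.1 * ((flipCK g) p).2⁻¹ = p.2 := by
      simp only [flipCK, Equiv.coe_fn_mk, act_val]
      group
    have e2 : act ((flipCK g) p).2 ((flipCK g) p).1 = p.1 := by
      apply Subtype.ext
      simp only [flipCK, Equiv.coe_fn_mk, act_val]
      group
    rw [e1, e2]
    simp only [flipCK, Equiv.coe_fn_mk]
    ring
  unfold tr
  simp only [CP.mul_f]
  calc ∑' c : Cl g, ∑' k, F.f (c.1 * k⁻¹) (act k c) * F'.f k c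
      = ∑' p : Cl g × G, F.f (p.1.1 * p.2⁻¹) (act p.2 p.1) * F'.f p.2 p.1 := (hS.tsum_prod).symm
    _ = ∑' p : Cl g × G,
        F'.f (((flipCK g) p).1.1 * ((flipCK g) p).2⁻¹) (act ((flipCK g) p).2 ((flipCK g) p).1)
        * F.f ((flipCK g) p).2 ((flipCK g) p).1 := tsum_congr fun p => (e p).symm
    _ = ∑' p : Cl g × G, F'.f (p.1.1 * p.2⁻¹) (act p.2 p.1) * F.f p.2 p.1 :=
        (flipCK g).tsum_eq (fun p : Cl g × G => F'.f (p.1.1 * p.2⁻¹) (act p.2 p.1) * F.f p.2 p.1)
    _ = ∑' c : Cl g, ∑' k, F'.f (c.1 * k⁻¹) (act k c) * F.f k c := hS'.tsum_prod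

end Vale.Agent.Lib.P184c
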